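import Vale.Agent.P129.L2

open Filter Topology Submodule

namespace Vale.Agent.P129

variable {𝕜 : Type*} [RCLike 𝕜] {X : Type*} [NormedAddCommGroup X] [NormedSpace 𝕜 X]

/-- block sequences -/
def Block (d w : ℕ → X →L[𝕜] 𝕜) : Prop :=
  ∃ p : ℕ → ℕ, StrictMono p ∧ ∀ n, w n ∈ span 𝕜 (d '' (Finset.Ico (p n) (p (n + 1)) : Finset ℕ))

lemma span_Ico_mono (d : ℕ → X →L[𝕜] 𝕜) {a b a' b' : ℕ} (ha : a' ≤ a) (hb : b ≤ b') :
    span 𝕜 (d '' (Finset.Ico a b : Finset ℕ)) ≤ span 𝕜 (d '' (Finset.Ico a' b' : Finset ℕ)) :=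
  span_mono (Set.image_mono (Finset.coe_subset.2 (Finset.Ico_subset_Ico ha hb)))

lemma Block.refl (d : ℕ → X →L[𝕜] 𝕜) : Block d d :=
  ⟨id, strictMono_id, fun n => subset_span ⟨n, by simp, rfl⟩⟩

lemma Block.trans {d w e : ℕ → X →L[𝕜] 𝕜} (h1 : Block d w) (h2 : Block w e) : Block d e := by
  obtain ⟨p, hp, h1⟩ := h1
  obtain ⟨q, hq, h2⟩ := h2
  refine ⟨p ∘ q, hp.comp hq, fun n => span_le.2 ?_ (h2 n)⟩
  rintro _ ⟨k, hk, rfl⟩
  have hk' := Finset.mem_Ico.1 hk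
  exact span_Ico_mono d (hp.monotone hk'.1) (hp.monotone hk'.2) (h1 k)

lemma exists_coeff {d : ℕ → X →L[𝕜] 𝕜} {F : Finset ℕ} {f : X →L[𝕜] 𝕜}
    (h : f ∈ span 𝕜 (d '' F)) : ∃ a : ℕ → 𝕜, ∑ i ∈ F, a i • d i = f :=
  (mem_span_image_finset_iff_exists_fun' 𝕜).1 h

lemma sum_mem_span (d : ℕ → X →L[𝕜] 𝕜) (F : Finset ℕ) (a : ℕ → 𝕜) :
    ∑ i ∈ F, a i • d i ∈ span 𝕜 (d '' F) :=
  (mem_span_image_finset_iff_exists_fun' 𝕜).2 ⟨a, rfl⟩

lemma Free.block {d w : ℕ → X →L[𝕜] 𝕜} (hd : Free d) (h : Block d w) : Free w := by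
  classical
  obtain ⟨p, hp, h⟩ := h
  intro F a
  let G := F.biUnion fun n => Finset.Ico (p n) (p (n + 1))
  have hm : ∑ i ∈ F, a i • w i ∈ span 𝕜 (d '' G) :=
    sum_mem fun n hn => smul_mem _ _ (span_mono (Set.image_mono (Finset.coe_subset.2
      (Finset.subset_biUnion_of_mem (fun n => Finset.Ico (p n) (p (n + 1))) hn))) (h n))
  obtain ⟨b, hb⟩ := exists_coeff hm
  obtain ⟨x, h1, h2, h3⟩ := hd G b
  rw [hb] at h3
  refine ⟨x, h1, fun n hn => ?_, h3⟩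
  obtain ⟨c, hc⟩ := exists_coeff (h n)
  rw [← hc, ContinuousLinearMap.sum_apply]
  refine Finset.sum_eq_zero fun i hi => ?_
  rw [ContinuousLinearMap.smul_apply, h2 i, smul_zero]
  intro hG
  obtain ⟨m, hm, hi'⟩ := Finset.mem_biUnion.1 hG
  exact hn (interval_unique hp hi' hi ▸ hm)

/-- lower `l1` estimate -/
def L1 (d : ℕ → X →L[𝕜] 𝕜) (K : ℝ) : Prop :=
  ∀ (F : Finset ℕ) (a : ℕ → 𝕜), ∑ i ∈ F, ‖a i‖ ≤ K * ‖∑ i ∈ F, a i • d i‖

lemma sum_abs_le_of_subsums (F : Finset ℕ) (r : ℕ → ℝ) (B : ℝ)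
    (h : ∀ S ⊆ F, |∑ i ∈ S, r i| ≤ B) : ∑ i ∈ F, |r i| ≤ 2 * B := by
  classical
  rw [← Finset.sum_filter_add_sum_filter_not F fun i => 0 ≤ r i]
  have h1 := (abs_le.1 (h _ (Finset.filter_subset (fun i => 0 ≤ r i) F))).2
  have h2 := (abs_le.1 (h _ (Finset.filter_subset (fun i => ¬ 0 ≤ r i) F))).1
  rw [Finset.sum_congr rfl fun i hi => abs_of_nonneg (Finset.mem_filter.1 hi).2,
    Finset.sum_congr rfl fun i hi => abs_of_neg (not_le.1 (Finset.mem_filter.1 hi).2),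
    Finset.sum_neg_distrib]
  linarith

lemma sum_norm_le_of_subsums (F : Finset ℕ) (a : ℕ → 𝕜) (B : ℝ)
    (h : ∀ S ⊆ F, ‖∑ i ∈ S, a i‖ ≤ B) : ∑ i ∈ F, ‖a i‖ ≤ 4 * B := by
  have h1 := sum_abs_le_of_subsums F (fun i => RCLike.re (a i)) B fun S hS => by
    rw [← map_sum]; exact (RCLike.abs_re_le_norm _).trans (h S hS)
  have h2 := sum_abs_le_of_subsums F (fun i => RCLike.im (a i)) B fun S hS => by
    rw [← map_sum]; exact (RCLike.abs_im_le_norm _).trans (h S hS)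
  have h3 : ∑ i ∈ F, ‖a i‖ ≤ ∑ i ∈ F, (|RCLike.re (a i)| + |RCLike.im (a i)|) :=
    Finset.sum_le_sum fun i _ => by
      refine abs_le_of_sq_le_sq' ?_ (by positivity) |>.2
      rw [RCLike.norm_sq_eq_def, add_sq, sq_abs, sq_abs]
      have : 0 ≤ |RCLike.re (a i)| * |RCLike.im (a i)| := by positivity
      nlinarith
  rw [Finset.sum_add_distrib] at h3
  linarith

lemma Free.l1 {u : ℕ → X →L[𝕜] 𝕜} (hu : Free u) {x0 : X} (h : ∀ k, u k x0 = 1) :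
    L1 u (8 * ‖x0‖) := by
  intro F a
  refine (sum_norm_le_of_subsums F a (2 * ‖x0‖ * ‖∑ i ∈ F, a i • u i‖) fun S hS => ?_).trans_eq
    (by ring)
  obtain ⟨x, h1, h2, h3⟩ := hu S a
  have e1 : ∑ i ∈ S, a i = (∑ i ∈ S, a i • u i) x0 := by simp [h]
  have e2 : (∑ i ∈ S, a i • u i) x = (∑ i ∈ F, a i • u i) x := by
    simp only [ContinuousLinearMap.sum_apply, ContinuousLinearMap.smul_apply]
    exact Finset.sum_subset hS fun i _ hi => by rw [h2 i hi, smul_zero]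
  have h4 := (∑ i ∈ F, a i • u i).unit_le_opNorm x h1
  have h5 := (∑ i ∈ S, a i • u i).le_opNorm x0
  rw [e2] at h3
  rw [e1]
  nlinarith [norm_nonneg x0]

lemma L1.block {u d : ℕ → X →L[𝕜] 𝕜} {K C : ℝ} (hu : L1 u K) (hC : ∀ k, ‖u k‖ ≤ C)
    (h : Block u d) (h1 : ∀ n, ‖d n‖ = 1) : L1 d (C * K) := by
  classical
  obtain ⟨p, hp, h⟩ := h
  choose b hb using fun n => exists_coeff (h n)
  intro F c
  have hC0 : 0 ≤ C := (norm_nonneg _).trans (hC 0)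
  let I := fun n => Finset.Ico (p n) (p (n + 1))
  let e : ℕ → 𝕜 := fun i => ∑ n ∈ F, if i ∈ I n then c n * b n i else 0
  have he : ∀ n ∈ F, ∀ i ∈ I n, e i = c n * b n i := fun n hn i hi => by
    rw [show e i = ∑ n ∈ F, if i ∈ I n then c n * b n i else 0 from rfl,
      Finset.sum_eq_single_of_mem n hn fun m _ hm =>
        if_neg fun h' => hm (interval_unique hp h' hi), if_pos hi]
  have hdis : (F : Set ℕ).PairwiseDisjoint I := fun n _ m _ hnm =>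
    Finset.disjoint_left.2 fun i hi hi' => hnm (interval_unique hp hi hi')
  have h2 := hu (F.biUnion I) e
  rw [Finset.sum_biUnion hdis, Finset.sum_biUnion hdis] at h2
  have e1 : ∑ n ∈ F, ∑ i ∈ I n, e i • u i = ∑ n ∈ F, c n • d n := by
    refine Finset.sum_congr rfl fun n hn => ?_
    rw [← hb n]
    ext x
    simp only [ContinuousLinearMap.sum_apply, ContinuousLinearMap.smul_apply, smul_eq_mul,
      Finset.mul_sum]
    exact Finset.sum_congr rfl fun i hi => by rw [he n hn i hi, mul_assoc]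
  rw [e1] at h2
  rw [mul_assoc]
  refine le_trans ?_ (mul_le_mul_of_nonneg_left h2 hC0)
  rw [Finset.mul_sum]
  refine Finset.sum_le_sum fun n hn => ?_
  have h3 : (1 : ℝ) ≤ ∑ i ∈ I n, ‖b n i‖ * C := by
    rw [← h1 n, ← hb n]
    exact norm_sum_le_of_le _ fun i _ => by rw [norm_smul]; gcongr; exact hC i
  rw [Finset.sum_congr rfl fun i hi => by rw [he n hn i hi, norm_mul], ← Finset.mul_sum]
  rw [← Finset.sum_mul] at h3
  nlinarith [norm_nonneg (c n)]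

lemma L1.apply_le {d : ℕ → X →L[𝕜] 𝕜} {K : ℝ} (hd : L1 d K) {F : Finset ℕ} {x : X} {η : ℝ}
    (hη : 0 ≤ η) (h : ∀ i ∈ F, ‖d i x‖ ≤ η) (a : ℕ → 𝕜) :
    ‖(∑ i ∈ F, a i • d i) x‖ ≤ η * K * ‖∑ i ∈ F, a i • d i‖ := by
  rw [mul_assoc]
  refine le_trans ?_ (mul_le_mul_of_nonneg_left (hd F a) hη)
  rw [ContinuousLinearMap.sum_apply, Finset.mul_sum]
  refine norm_sum_le_of_le _ fun i hi => ?_
  rw [ContinuousLinearMap.smul_apply, norm_smul, mul_comm]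
  gcongr
  exact h i hi

lemma L1.tail {d : ℕ → X →L[𝕜] 𝕜} {K : ℝ} (hK : 0 < K) (hd : L1 d K)
    (h : ∀ x η, 0 < η → ∀ᶠ n in atTop, ‖d n x‖ ≤ η) : Tail d := by
  intro x η hη
  obtain ⟨N, hN⟩ := eventually_atTop.1 (h x (η / K) (by positivity))
  refine ⟨N, fun F hF a => (hd.apply_le (by positivity) (fun i hi => hN i (hF i hi)) a).trans_eq ?_⟩
  field_simp

lemma exists_block_of_not_tail {z : ℕ → X →L[𝕜] 𝕜} (h : ¬ Tail z) :
    ∃ (u : ℕ → X →L[𝕜] 𝕜) (x0 : X) (C : ℝ), Block z u ∧ (∀ k, u k x0 = 1) ∧ ∀ k, ‖u k‖ ≤ C := by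
  unfold Tail at h
  push Not at h
  obtain ⟨x, η, hη, h⟩ := h
  choose F hF a ha using h
  let p : ℕ → ℕ := fun k => Nat.rec 0 (fun _ N => (F N).sup id + N + 1) k
  have hp : ∀ k, p (k + 1) = (F (p k)).sup id + p k + 1 := fun k => rfl
  let f : ℕ → X →L[𝕜] 𝕜 := fun N => ∑ i ∈ F N, a N i • z i
  have hf : ∀ N, 0 < ‖f N x‖ := fun N => lt_of_le_of_lt (by positivity) (ha N)
  refine ⟨fun k => (f (p k) x)⁻¹ • f (p k), x, η⁻¹,
    ⟨p, strictMono_nat_of_lt_succ fun k => by rw [hp]; omega, fun k => ?_⟩, fun k => ?_,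
    fun k => ?_⟩
  · refine smul_mem _ _ (span_mono (Set.image_mono (Finset.coe_subset.2 fun i hi => ?_))
      (sum_mem_span z (F (p k)) (a (p k))))
    have h1 : i ≤ (F (p k)).sup id := Finset.le_sup (f := id) hi
    have h2 := hF _ i hi
    rw [Finset.mem_Ico, hp]
    omega
  · simp [norm_pos_iff.1 (hf (p k))]
  · rw [norm_smul, norm_inv, inv_mul_le_iff₀ (hf _), ← div_eq_mul_inv, le_div_iff₀ hη, mul_comm]
    exact (ha _).le

lemma norm_normalize {f : X →L[𝕜] 𝕜} (h : f ≠ 0) : ‖((‖f‖⁻¹ : ℝ) : 𝕜) • f‖ = 1 := by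
  have hn := norm_pos_iff.2 h
  rw [norm_smul, RCLike.norm_ofReal, abs_of_pos (inv_pos.2 hn), inv_mul_cancel₀ hn.ne']

lemma diag {u : ℕ → X →L[𝕜] 𝕜} {K : ℝ} (hK : 0 < K) (h0 : ∀ k, u k ≠ 0)
    (hL : ∀ d, Block u d → (∀ n, ‖d n‖ = 1) → L1 d K)
    (H : ∀ d, Block u d → (∀ n, ‖d n‖ = 1) → ∀ ε : ℝ, 0 < ε → ∃ w, Block d w ∧ (∀ n, ‖w n‖ = 1) ∧
      ∀ x, ∀ᶠ n in atTop, ‖w n x‖ ≤ ε * ‖x‖) :
    ∃ e, Block u e ∧ (∀ n, ‖e n‖ = 1) ∧ Tail e := by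
  choose W h1 h2 h3 using fun (m : ℕ) (d : {d // Block u d ∧ ∀ n, ‖d n‖ = 1}) =>
    H d.1 d.2.1 d.2.2 (1 / (m + 1)) (by positivity)
  let D : ℕ → {d // Block u d ∧ ∀ n, ‖d n‖ = 1} := fun m => Nat.rec
    ⟨fun k => ((‖u k‖⁻¹ : ℝ) : 𝕜) • u k,
      ⟨id, strictMono_id, fun n => smul_mem _ _ (subset_span ⟨n, by simp, rfl⟩)⟩,
      fun k => norm_normalize (h0 k)⟩
    (fun m d => ⟨W m d, d.2.1.trans (h1 m d), h2 m d⟩) m
  have hD : ∀ m m', m ≤ m' → Block (D m).1 (D m').1 := by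
    intro m m' h
    induction m', h using Nat.le_induction with
    | base => exact Block.refl _
    | succ m' _ ih => exact ih.trans (h1 m' (D m'))
  have hn : ∀ m N, ∃ N', N < N' ∧ (D m).1 N ∈ span 𝕜 (u '' (Finset.Ico N N' : Finset ℕ)) := by
    intro m N
    obtain ⟨p, hp, h⟩ := (D m).2.1
    exact ⟨p (N + 1), hp.id_le (N + 1), span_Ico_mono u (hp.id_le N) le_rfl (h N)⟩
  choose nxt hn1 hn2 using hn
  let q : ℕ → ℕ := fun m => Nat.rec 0 nxt m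
  have hq : StrictMono q := strictMono_nat_of_lt_succ fun m => hn1 m (q m)
  have hB : Block u fun m => (D m).1 (q m) := ⟨q, hq, fun m => hn2 m (q m)⟩
  refine ⟨_, hB, fun m => (D m).2.2 _,
    (hL _ hB fun m => (D m).2.2 _).tail hK fun x η hη => ?_⟩
  obtain ⟨m, hm⟩ := exists_nat_gt (‖x‖ * K / η)
  obtain ⟨N, hN⟩ := eventually_atTop.1 (h3 m (D m) x)
  filter_upwards [eventually_ge_atTop (m + 1), eventually_ge_atTop N] with n hn hn'
  obtain ⟨p, hp, h⟩ := hD (m + 1) n hn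
  obtain ⟨a, ha⟩ := exists_coeff (h (q n))
  have := (hL _ (D (m + 1)).2.1 (D (m + 1)).2.2).apply_le (x := x) (η := 1 / (m + 1) * ‖x‖)
    (F := Finset.Ico (p (q n)) (p (q n + 1))) (by positivity) (fun i hi => hN i
      (hn'.trans ((hq.id_le n).trans ((hp.id_le _).trans (Finset.mem_Ico.1 hi).1)))) a
  rw [ha, (D n).2.2, mul_one] at this
  refine this.trans ?_
  rw [div_lt_iff₀ hη] at hm
  rw [mul_assoc, div_mul_eq_mul_div, div_le_iff₀ (by positivity)]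
  nlinarith

end Vale.Agent.P129
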