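import Vale.Agent.P129.Free

open Filter Topology

namespace Vale.Agent.P129

variable {𝕜 : Type*} [RCLike 𝕜] {X : Type*} [NormedAddCommGroup X] [NormedSpace 𝕜 X]

lemma approx_preimage {V W : Type*} [NormedAddCommGroup V] [NormedSpace 𝕜 V]
    [NormedAddCommGroup W] [NormedSpace 𝕜 W] (T : V →L[𝕜] W) (b : W) (η : ℝ) (hη : 0 < η)
    (h : ∀ ψ : W →L[𝕜] 𝕜, ‖ψ b‖ ≤ η * ‖ψ.comp T‖) (ε : ℝ) (hε : 0 < ε) :
    ∃ v, ‖v‖ ≤ η ∧ ‖T v - b‖ < ε := by
  letI : NormedSpace ℝ V := NormedSpace.restrictScalars ℝ 𝕜 V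
  letI : NormedSpace ℝ W := NormedSpace.restrictScalars ℝ 𝕜 W
  haveI : IsScalarTower ℝ 𝕜 V := IsScalarTower.restrictScalars ℝ 𝕜 V
  haveI : IsScalarTower ℝ 𝕜 W := IsScalarTower.restrictScalars ℝ 𝕜 W
  have hb : b ∈ closure (T '' Metric.closedBall 0 η) := by
    by_contra hb
    have hc : Convex ℝ (closure (T '' Metric.closedBall 0 η)) :=
      ((convex_closedBall (0 : V) η).linear_image ((T : V →ₗ[𝕜] W).restrictScalars ℝ)).closure
    obtain ⟨f, u, hf, hu⟩ :=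
      RCLike.geometric_hahn_banach_closed_point (𝕜 := 𝕜) hc isClosed_closure hb
    have h1 : ∀ v, ‖v‖ ≤ η → ‖f (T v)‖ ≤ u := by
      intro v hv
      obtain ⟨c, hc1, hc2⟩ := RCLike.exists_norm_eq_mul_self (f (T v))
      have := hf (T (c • v)) (subset_closure ⟨c • v, by simpa [norm_smul, hc1] using hv, rfl⟩)
      rw [map_smul, map_smul, smul_eq_mul, ← hc2, RCLike.ofReal_re] at this
      exact this.le
    have hu0 : 0 ≤ u := by simpa using h1 0 (by simpa using hη.le)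
    have h2 : ‖f.comp T‖ ≤ u / η := by
      refine ContinuousLinearMap.opNorm_le_bound' _ (by positivity) fun v hv => ?_
      have hv' : 0 < ‖v‖ := (norm_nonneg v).lt_of_ne' hv
      have := h1 (((η / ‖v‖ : ℝ) : 𝕜) • v) (by
        rw [norm_smul, RCLike.norm_ofReal, abs_of_pos (by positivity), div_mul_cancel₀ _ hv])
      rw [map_smul, map_smul, norm_smul, RCLike.norm_ofReal, abs_of_pos (by positivity),
        div_mul_eq_mul_div, div_le_iff₀ hv'] at this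
      rw [div_mul_eq_mul_div, le_div_iff₀ hη]
      simpa [mul_comm] using this
    have h3 := (h f).trans (mul_le_mul_of_nonneg_left h2 hη.le)
    rw [mul_div_cancel₀ _ hη.ne'] at h3
    linarith [RCLike.re_le_norm (f b)]
  obtain ⟨w, ⟨v, hv, rfl⟩, hw⟩ := Metric.mem_closure_iff.1 hb ε hε
  exact ⟨v, by simpa using hv, by rwa [dist_comm, dist_eq_norm] at hw⟩

lemma Free.block_approx {z : ℕ → X →L[𝕜] 𝕜} (hz : Free z) (F : Finset ℕ) (x : X) (η : ℝ)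
    (hη : 0 < η) (h : ∀ a : ℕ → 𝕜, ‖(∑ i ∈ F, a i • z i) x‖ ≤ η * ‖∑ i ∈ F, a i • z i‖)
    (ε : ℝ) (hε : 0 < ε) :
    ∃ v, ‖v‖ ≤ 2 * η ∧ (∀ i ∉ F, z i v = 0) ∧ ∀ i ∈ F, ‖z i v - z i x‖ ≤ ε := by
  classical
  let V : Submodule 𝕜 X := ⨅ i ∉ F, (z i).ker
  have hV : ∀ v, v ∈ V ↔ ∀ i ∉ F, z i v = 0 := fun v => by simp [V]
  let T : V →L[𝕜] (F → 𝕜) := ContinuousLinearMap.pi fun i => (z i).comp V.subtypeL
  obtain ⟨v, hv, hv'⟩ := approx_preimage T (fun i => z i x) (2 * η) (by positivity) (fun ψ => by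
    let a : ℕ → 𝕜 := fun i => if h : i ∈ F then ψ (Pi.single ⟨i, h⟩ 1) else 0
    have key : ∀ y : X, ψ (fun i => z i y) = (∑ i ∈ F, a i • z i) y := fun y => by
      have : (fun i : F => z i y) = ∑ i : F, z i y • Pi.single i (1 : 𝕜) := by
        ext j; simp [Finset.sum_apply, Pi.single_apply]
      rw [this, map_sum, ContinuousLinearMap.sum_apply, ← Finset.sum_coe_sort F]
      refine Finset.sum_congr rfl fun i _ => ?_
      simp [a, mul_comm]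
    obtain ⟨x', h1, h2, h3⟩ := hz F a
    have h4 : ‖(ψ.comp T) ⟨x', (hV _).2 h2⟩‖ ≤ ‖ψ.comp T‖ :=
      (ψ.comp T).unit_le_opNorm _ h1
    have h5 : (ψ.comp T) ⟨x', (hV _).2 h2⟩ = (∑ i ∈ F, a i • z i) x' := key x'
    rw [h5] at h4
    rw [key]
    nlinarith [h a]) ε hε
  exact ⟨v, hv, (hV _).1 v.2, fun i hi =>
    (norm_le_pi_norm (T v - fun i : F => z i x) ⟨i, hi⟩).trans hv'.le⟩

/-- uniform weak-star smallness of tail combinations -/
def Tail (z : ℕ → X →L[𝕜] 𝕜) : Prop :=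
  ∀ (x : X) (η : ℝ), 0 < η → ∃ N, ∀ F : Finset ℕ, (∀ i ∈ F, N ≤ i) → ∀ a : ℕ → 𝕜,
    ‖(∑ i ∈ F, a i • z i) x‖ ≤ η * ‖∑ i ∈ F, a i • z i‖

lemma exists_interval {p : ℕ → ℕ} (hp : StrictMono p) {i : ℕ} (hi : p 0 ≤ i) :
    ∃ k, p k ≤ i ∧ i < p (k + 1) := by
  have h : ∃ k, i < p (k + 1) := ⟨i, Nat.lt_of_succ_le (hp.id_le (i + 1))⟩
  classical
  refine ⟨Nat.find h, ?_, Nat.find_spec h⟩
  rcases Nat.eq_zero_or_pos (Nat.find h) with h0 | h0
  · rwa [h0]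
  · have := Nat.find_min h (m := Nat.find h - 1) (by omega)
    rw [Nat.sub_add_cancel h0] at this
    omega

lemma interval_unique {p : ℕ → ℕ} (hp : StrictMono p) {i k l : ℕ}
    (hk : i ∈ Finset.Ico (p k) (p (k + 1))) (hl : i ∈ Finset.Ico (p l) (p (l + 1))) : k = l := by
  rw [Finset.mem_Ico] at hk hl
  have h1 := hp.lt_iff_lt.1 (hk.1.trans_lt hl.2)
  have h2 := hp.lt_iff_lt.1 (hl.1.trans_lt hk.2)
  omega

lemma unbounded_succ (y : ℕ → X →L[𝕜] 𝕜) (c : ℝ) (hc : 0 < c) (hy : ∀ k, c ≤ ‖y k‖) (B : ℝ) :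
    ∃ k : ℕ, B < ‖((k + 1 : ℝ) : 𝕜) • y k‖ := by
  obtain ⟨k, hk⟩ := exists_nat_gt (B / c)
  refine ⟨k, ?_⟩
  rw [norm_smul, RCLike.norm_ofReal, abs_of_pos (by positivity)]
  rw [div_lt_iff₀ hc] at hk
  nlinarith [hy k]

lemma bdd_of_eventually (y : ℕ → X →L[𝕜] 𝕜) (x : X) (N : ℕ) (B : ℝ)
    (h : ∀ k, N ≤ k → ‖y k x‖ ≤ B) : ∃ C, ∀ k, ‖y k x‖ ≤ C := by
  have hb : IsBoundedUnder (· ≤ ·) atTop fun k => ‖y k x‖ :=
    ⟨B, eventually_map.2 (eventually_atTop.2 ⟨N, h⟩)⟩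
  obtain ⟨C, hC⟩ := hb.bddAbove_range
  exact ⟨C, fun k => hC ⟨k, rfl⟩⟩

theorem sq_of_tail [CompleteSpace X] {z : ℕ → X →L[𝕜] 𝕜} (h1 : ∀ i, ‖z i‖ = 1) (hz : Free z)
    (ht : Tail z) : HasSepQuot 𝕜 X := by
  refine sq_of_unbounded (fun k : ℕ => ((k + 1 : ℝ) : 𝕜) • z k)
    (unbounded_succ z 1 one_pos fun k => (h1 k).ge) (Metric.dense_iff.2 fun x η hη => ?_)
  choose N hN using fun k : ℕ => ht x (η / 8 / 2 ^ k) (by positivity)
  let p : ℕ → ℕ := fun k => ∑ j ∈ Finset.range (k + 1), (N j + 1)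
  have hp : StrictMono p := strictMono_nat_of_lt_succ fun k => by
    simp only [p, Finset.sum_range_succ _ (k + 1)]; omega
  have hpN : ∀ k, N k ≤ p k := fun k => by
    simp only [p, Finset.sum_range_succ _ k]; omega
  choose v hv1 hv2 hv3 using fun k => hz.block_approx (Finset.Ico (p k) (p (k + 1))) x
    (η / 8 / 2 ^ k) (by positivity)
    (hN k _ fun i hi => (hpN k).trans (Finset.mem_Ico.1 hi).1) (1 / (p (k + 1) + 1))
    (by positivity)
  have hg := hasSum_geometric_two' (η / 2)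
  have hb : ∀ k, ‖v k‖ ≤ η / 2 / 2 / 2 ^ k := fun k => (hv1 k).trans_eq (by ring)
  have hs : Summable v := Summable.of_norm_bounded hg.summable hb
  have hn : ‖∑' k, v k‖ ≤ η / 2 := tsum_of_norm_bounded hg hb
  refine ⟨x - ∑' k, v k, ?_, bdd_of_eventually _ _ (p 0) 1 fun i hi => ?_⟩
  · rw [mem_ball_iff_norm]
    simp only [sub_sub_cancel_left, norm_neg]
    linarith
  · obtain ⟨k, hk⟩ := exists_interval hp hi
    have hk' := Finset.mem_Ico.2 hk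
    have : z i (∑' k, v k) = z i (v k) := by
      rw [(z i).map_tsum hs, tsum_eq_single k]
      exact fun l hl => hv2 l i fun h => hl (interval_unique hp h hk')
    rw [ContinuousLinearMap.smul_apply, norm_smul, RCLike.norm_ofReal, abs_of_pos (by positivity),
      map_sub, this, norm_sub_rev]
    have h2 := hv3 k i hk'
    have h3 : (i + 1 : ℝ) ≤ p (k + 1) + 1 := by
      have : (i : ℝ) ≤ p (k + 1) := by exact_mod_cast hk.2.le
      linarith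
    calc _ ≤ (p (k + 1) + 1 : ℝ) * (1 / (p (k + 1) + 1)) := by gcongr
      _ = 1 := by field_simp

end Vale.Agent.P129
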