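import Vale.Agent.P129.Defs

open Filter Topology

namespace Vale.Agent.P129

variable {𝕜 : Type*} [RCLike 𝕜] {X : Type*} [NormedAddCommGroup X] [NormedSpace 𝕜 X]

/-- biorthogonal criterion -/
lemma sq_of_biorth [CompleteSpace X] (u : ℕ → X) (f : ℕ → X →L[𝕜] 𝕜)
    (h1 : ∀ n, f n (u n) = 1) (h0 : ∀ n m, n ≠ m → f n (u m) = 0) (hu : ∀ n, ‖u n‖ ≤ 1)
    (hD : Dense {x | Summable fun n => ‖f n x‖}) : HasSepQuot 𝕜 X := by
  let M : Submodule 𝕜 X := ⨅ n, (f n).ker
  have hM : ∀ x, x ∈ M ↔ ∀ n, f n x = 0 := fun x => by simp [M]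
  have hcl : IsClosed (M : Set X) := by
    have : (M : Set X) = ⋂ n, {x | f n x = 0} := by ext x; simp [hM]
    rw [this]
    exact isClosed_iInter fun n => isClosed_eq (f n).continuous continuous_const
  have hq : Continuous M.mkQ := continuous_quot_mk
  refine ⟨M, hcl, ?_, ?_⟩
  · let S : Submodule 𝕜 (X ⧸ M) := Submodule.span 𝕜 (Set.range fun n => M.mkQ (u n))
    have hS : TopologicalSpace.IsSeparable (closure (S : Set (X ⧸ M))) :=
      ((Set.countable_range _).isSeparable.span).closure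
    have hall : ∀ x, M.mkQ x ∈ closure (S : Set (X ⧸ M)) := by
      intro x
      refine hD.induction (P := fun x => M.mkQ x ∈ closure (S : Set (X ⧸ M))) ?_
        (isClosed_closure.preimage hq) x
      intro x hx
      have hs : Summable fun n => f n x • u n := by
        refine Summable.of_norm_bounded hx fun n => ?_
        rw [norm_smul]
        exact mul_le_of_le_one_right (norm_nonneg _) (hu n)
      have hm : x - ∑' n, f n x • u n ∈ M := by
        rw [hM]
        intro m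
        rw [map_sub, (f m).map_tsum hs, tsum_eq_single m]
        · simp [h1]
        · intro n hn
          simp [h0 m n hn.symm]
      have he : M.mkQ x = M.mkQ (∑' n, f n x • u n) := (Submodule.Quotient.eq M).2 hm
      rw [he]
      refine mem_closure_of_tendsto ((hq.tendsto _).comp hs.hasSum) (Eventually.of_forall fun F => ?_)
      simp only [Function.comp, map_sum, map_smul, SetLike.mem_coe]
      exact S.sum_mem fun n _ => S.smul_mem _ (Submodule.subset_span ⟨n, rfl⟩)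
    rw [← TopologicalSpace.isSeparable_univ_iff]
    refine hS.mono fun y _ => ?_
    obtain ⟨x, rfl⟩ := M.mkQ_surjective y
    exact hall x
  · intro hfin
    have hle : ∀ n, M ≤ LinearMap.ker (f n : X →ₗ[𝕜] 𝕜) := fun n x hx => (hM x).1 hx n
    have hli : LinearIndependent 𝕜 fun n => M.mkQ (u n) := by
      refine LinearIndependent.of_pairwise_dual_eq_zero_one _
        (fun n => M.liftQ (f n : X →ₗ[𝕜] 𝕜) (hle n)) (fun n m hnm => ?_) (fun n => ?_)
      · simpa using h0 n m hnm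
      · simpa using h1 n
    exact Module.Finite.not_linearIndependent_of_infinite _ hli

/-- state of the recursion in `sq_of_unbounded` -/
def St {ι : Type*} (g : ι → X →L[𝕜] 𝕜) (P : X →L[𝕜] X) : Prop :=
  (∀ x, P (P x) = P x) ∧ ∃ c, 0 ≤ c ∧ ∀ k x, ‖g k (x - P x)‖ ≤ c * ‖x‖

lemma st_step {ι : Type*} (g : ι → X →L[𝕜] 𝕜) (hg : ∀ B, ∃ k, B < ‖g k‖)
    (hD : Dense {x | ∃ C, ∀ k, ‖g k x‖ ≤ C}) (ε : ℝ) (hε : 0 < ε) (P : X →L[𝕜] X)
    (hP : St g P) : ∃ (u : X) (f : X →L[𝕜] 𝕜), P u = u ∧ (∀ x, f (P x) = f x) ∧ f u = 1 ∧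
      ‖u‖ ≤ 1 ∧ (∀ x C, ‖x‖ ≤ C → (∀ k, ‖g k x‖ ≤ C) → ‖f x‖ ≤ ε * C) ∧
      St g (P - f.smulRight u) := by
  obtain ⟨hid, c, hc, hb⟩ := hP
  set A := (1 + c) / ε with hA
  have hA0 : 0 < A := by positivity
  obtain ⟨k, hk⟩ := hg (c + A * ‖P‖)
  obtain ⟨x, ⟨C, hC⟩, hx⟩ : ∃ x, (∃ C, ∀ k, ‖g k x‖ ≤ C) ∧
      (c + A * ‖P‖) * ‖x‖ < ‖g k x‖ := by
    by_contra hcon
    push Not at hcon
    refine hk.not_ge ((g k).opNorm_le_bound (by positivity) fun x => ?_)
    refine hD.induction (P := fun x => ‖g k x‖ ≤ (c + A * ‖P‖) * ‖x‖) ?_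
      (isClosed_le (by fun_prop) (by fun_prop)) x
    rintro x ⟨C, hC⟩
    exact hcon x ⟨C, hC⟩
  have hsplit : ∀ j y, ‖g j (P y)‖ ≤ ‖g j y‖ + c * ‖y‖ := fun j y => by
    have : g j (P y) = g j y - g j (y - P y) := by simp
    rw [this]
    exact (norm_sub_le _ _).trans (by linarith [hb j y])
  have h2 : A * ‖P x‖ < ‖g k (P x)‖ := by
    have e : g k x = g k (P x) + g k (x - P x) := by simp
    have := norm_add_le (g k (P x)) (g k (x - P x))
    rw [← e] at this
    have h3 := mul_le_mul_of_nonneg_left (P.le_opNorm x) hA0.le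
    nlinarith [hb k x]
  have hPx : P x ≠ 0 := by
    intro h
    simp [h] at h2
  have hn : 0 < ‖P x‖ := norm_pos_iff.2 hPx
  set u : X := ((‖P x‖⁻¹ : ℝ) : 𝕜) • P x with hu
  have hgu : A < ‖g k u‖ := by
    rw [hu, map_smul, norm_smul, RCLike.norm_ofReal, abs_of_pos (inv_pos.2 hn),
      lt_inv_mul_iff₀ hn]
    linarith
  have hgu0 : g k u ≠ 0 := by
    intro h
    rw [h, norm_zero] at hgu
    linarith
  have hPu : P u = u := by simp [hu, hid]
  have hun : ‖u‖ ≤ 1 := by
    rw [hu, norm_smul, RCLike.norm_ofReal, abs_of_pos (inv_pos.2 hn), inv_mul_cancel₀ hn.ne']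
  set f : X →L[𝕜] 𝕜 := (g k u)⁻¹ • (g k).comp P with hf
  have hfP : ∀ y, f (P y) = f y := fun y => by simp [hf, hid]
  have hfu : f u = 1 := by simp [hf, hPu, hgu0]
  refine ⟨u, f, hPu, hfP, hfu, hun, fun y C' hy hy' => ?_, fun y => ?_, ?_⟩
  · have : ‖f y‖ = ‖g k (P y)‖ / ‖g k u‖ := by simp [hf, div_eq_inv_mul]
    have hC' : 0 ≤ C' := (norm_nonneg _).trans hy
    rw [this, div_le_iff₀ (hA0.trans hgu)]
    have h4 : ε * A = 1 + c := by rw [hA]; field_simp
    have h5 := mul_le_mul_of_nonneg_left hy hc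
    have h6 := mul_le_mul_of_nonneg_left hgu.le (mul_nonneg hε.le hC')
    nlinarith [hsplit k y, hy' k]
  · simp [hid, hPu, hfP, hfu]
  · have hC0 : 0 ≤ C := (norm_nonneg _).trans (hC k)
    refine ⟨c + ‖f‖ * (‖P x‖⁻¹ * (C + c * ‖x‖)), by positivity, fun j y => ?_⟩
    have e : g j (y - (P - f.smulRight u) y) = g j (y - P y) + f y * g j u := by
      simp; ring
    have h7 : ‖g j u‖ ≤ ‖P x‖⁻¹ * (C + c * ‖x‖) := by
      rw [hu, map_smul, norm_smul, RCLike.norm_ofReal, abs_of_pos (inv_pos.2 hn)]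
      gcongr
      linarith [hsplit j x, hC j]
    rw [e]
    refine (norm_add_le _ _).trans ?_
    rw [norm_mul]
    have h8 := mul_le_mul (f.le_opNorm y) h7 (norm_nonneg _) (by positivity)
    nlinarith [hb j y]

/-- A norm-unbounded family of functionals that is pointwise bounded on a dense set yields a
separable quotient. -/
theorem sq_of_unbounded [CompleteSpace X] {ι : Type*} (g : ι → X →L[𝕜] 𝕜)
    (hg : ∀ B, ∃ k, B < ‖g k‖) (hD : Dense {x | ∃ C, ∀ k, ‖g k x‖ ≤ C}) : HasSepQuot 𝕜 X := by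
  have hstep := fun (n : ℕ) (P : {P // St g P}) =>
    st_step g hg hD ((1 / 2) ^ n) (by positivity) P.1 P.2
  choose u f h1 h2 h3 h4 h5 h6 using hstep
  let P : ℕ → {P // St g P} := fun n => Nat.rec ⟨ContinuousLinearMap.id 𝕜 X, by simp, 0, le_rfl,
    by simp⟩ (fun n P => ⟨_, h6 n P⟩) n
  have hP : ∀ n x, (P (n + 1)).1 x = (P n).1 x - f n (P n) x • u n (P n) := fun n x => rfl
  have a1 : ∀ n m, n < m → (P m).1 (u n (P n)) = 0 := by
    intro n m hnm
    induction m, hnm using Nat.le_induction with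
    | base => rw [hP, h1, h3]; simp
    | succ m _ ih => rw [hP, ← h2, ih]; simp
  have a2 : ∀ n m, n < m → ∀ x, f n (P n) ((P m).1 x) = 0 := by
    intro n m hnm
    induction m, hnm using Nat.le_induction with
    | base => intro x; rw [hP, map_sub, map_smul, h2, h3]; simp
    | succ m _ ih => intro x; rw [hP, map_sub, map_smul, ih, ← h1 m (P m), ih]; simp
  refine sq_of_biorth (fun n => u n (P n)) (fun n => f n (P n)) (fun n => h3 _ _)
    (fun n m hnm => ?_) (fun n => h4 _ _) (hD.mono ?_)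
  · rcases lt_or_gt_of_ne hnm with h | h
    · show f n (P n) (u m (P m)) = 0
      rw [← h1 m (P m), a2 n m h]
    · show f n (P n) (u m (P m)) = 0
      rw [← h2, a1 m n h, map_zero]
  · rintro x ⟨C, hC⟩
    refine Summable.of_nonneg_of_le (fun _ => norm_nonneg _)
      (fun n => h5 n (P n) x (max C ‖x‖) (le_max_right _ _) fun k => (hC k).trans (le_max_left _ _))
      (summable_geometric_two.mul_right _)

end Vale.Agent.P129
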