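import Vale.Agent.P129.Defs

open Filter Topology Module

namespace Vale.Agent.P129

variable {𝕜 : Type*} [RCLike 𝕜]

lemma det_one_add_proj {H : Type*} [NormedAddCommGroup H] [InnerProductSpace 𝕜 H]
    [FiniteDimensional 𝕜 H] (K : Submodule 𝕜 H) :
    LinearMap.det ((1 + K.starProjection : H →L[𝕜] H) : H →ₗ[𝕜] H) = 2 ^ finrank 𝕜 K := by
  let e := K.prodEquivOfIsCompl _ K.isCompl_orthogonal
  let b := (finBasis 𝕜 K).prod (finBasis 𝕜 Kᗮ)
  have : LinearMap.toMatrix b b
      (e.symm ∘ₗ ((1 + K.starProjection : H →L[𝕜] H) : H →ₗ[𝕜] H) ∘ₗ e.symm.symm) =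
      Matrix.fromBlocks ((2 : 𝕜) • 1) 0 0 1 := by
    have hz : ∀ w : Kᗮ, K.starProjection (w : H) = 0 := fun w =>
      (K.starProjection_apply_eq_zero_iff).2 w.2
    ext (i | i) (j | j) <;>
    simp [LinearMap.toMatrix_apply, b, Matrix.one_apply, Finsupp.single_apply, e, eq_comm,
      hz, two_mul, one_add_one_eq_two]
    all_goals (split_ifs <;> norm_num)
  rw [← LinearMap.det_conj _ e.symm, ← LinearMap.det_toMatrix b, this, Matrix.det_fromBlocks_zero₂₁,
    Matrix.det_one, mul_one, Matrix.det_smul, Fintype.card_fin, Matrix.det_one, mul_one]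

lemma exists_good_op {H Y : Type*} [NormedAddCommGroup H] [InnerProductSpace 𝕜 H]
    [FiniteDimensional 𝕜 H] [NormedAddCommGroup Y] [NormedSpace 𝕜 Y] (J : H →L[𝕜] Y)
    (hJ : Function.Injective J) :
    ∃ T : H →L[𝕜] Y, ‖T‖ ≤ 1 ∧ ∀ W : Submodule 𝕜 H, 0 < finrank 𝕜 W →
      finrank 𝕜 H ≤ 2 * finrank 𝕜 W → ∃ h ∈ W, ‖h‖ = 1 ∧ 1 / 4 < ‖T h‖ := by
  obtain ⟨c, hc0, hc⟩ := (J : H →ₗ[𝕜] Y).exists_antilipschitzWith (LinearMap.ker_eq_bot.2 hJ)
  have hc' : ∀ h, ‖h‖ ≤ c * ‖J h‖ := fun h => by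
    simpa using hc.le_mul_dist h 0
  haveI : ProperSpace (H →L[𝕜] H) := FiniteDimensional.proper_rclike 𝕜 _
  let K : Set (H →L[𝕜] H) := {M | ‖J.comp M‖ ≤ 1}
  have hK : IsCompact K := by
    refine Metric.isCompact_of_isClosed_isBounded
      (isClosed_le (by fun_prop) continuous_const) ?_
    refine (Metric.isBounded_closedBall (x := 0) (r := c)).subset fun M hM => ?_
    rw [mem_closedBall_zero_iff]
    refine M.opNorm_le_bound c.2 fun h => (hc' _).trans ?_
    have := (J.comp M).le_of_opNorm_le hM h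
    simp only [ContinuousLinearMap.comp_apply, one_mul] at this
    gcongr
  set s : ℝ := (‖J‖ + 1)⁻¹ with hs
  have hs0 : 0 < s := by positivity
  have hsK : ((s : 𝕜) • (1 : H →L[𝕜] H)) ∈ K := by
    show ‖J.comp ((s : 𝕜) • (1 : H →L[𝕜] H))‖ ≤ 1
    have : J.comp ((s : 𝕜) • (1 : H →L[𝕜] H)) = (s : 𝕜) • J := by ext; simp
    rw [this, norm_smul, RCLike.norm_ofReal, abs_of_pos hs0, hs, inv_mul_le_iff₀ (by positivity)]
    linarith
  obtain ⟨M, hM, hmax⟩ := hK.exists_isMaxOn ⟨_, hsK⟩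
    (ContinuousLinearMap.continuous_det.norm.continuousOn)
  have hpos : 0 < ‖M.det‖ := by
    refine lt_of_lt_of_le ?_ (hmax hsK)
    simp only [ContinuousLinearMap.det, ContinuousLinearMap.coe_smul, LinearMap.det_smul,
      ContinuousLinearMap.coe_one, map_one, mul_one, norm_pow, RCLike.norm_ofReal]
    positivity
  refine ⟨J.comp M, hM, fun W hW0 hW => ?_⟩
  by_contra hcon
  push Not at hcon
  have hsmall : ∀ h ∈ W, ‖J (M h)‖ ≤ 1 / 4 * ‖h‖ := by
    intro h hh
    rcases eq_or_ne h 0 with rfl | h0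
    · simp
    have hn : 0 < ‖h‖ := norm_pos_iff.2 h0
    have := hcon (((‖h‖⁻¹ : ℝ) : 𝕜) • h) (W.smul_mem _ hh) (by
      rw [norm_smul, RCLike.norm_ofReal, abs_of_pos (inv_pos.2 hn), inv_mul_cancel₀ hn.ne'])
    rw [map_smul, norm_smul, RCLike.norm_ofReal, abs_of_pos (inv_pos.2 hn),
      inv_mul_le_iff₀ hn] at this
    simpa [mul_comm] using this
  have hK2 : ((4 / 5 : ℝ) : 𝕜) • (M * (1 + W.starProjection)) ∈ K := by
    show ‖J.comp _‖ ≤ 1
    refine ContinuousLinearMap.opNorm_le_bound _ zero_le_one fun h => ?_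
    have e : (J.comp (((4 / 5 : ℝ) : 𝕜) • (M * (1 + W.starProjection)))) h =
        ((4 / 5 : ℝ) : 𝕜) • (J (M h) + J (M (W.starProjection h))) := by simp
    rw [e, norm_smul, RCLike.norm_ofReal, abs_of_pos (by norm_num)]
    have h1 := (J.comp M).le_of_opNorm_le hM h
    simp only [ContinuousLinearMap.comp_apply, one_mul] at h1
    have h2 := hsmall _ (W.starProjection_apply_mem h)
    have h3 := W.norm_starProjection_apply_le h
    linarith [norm_add_le (J (M h)) (J (M (W.starProjection h)))]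
  have h4 : ‖(((4 / 5 : ℝ) : 𝕜) • (M * (1 + W.starProjection))).det‖ ≤ ‖M.det‖ := hmax hK2
  simp only [ContinuousLinearMap.det, ContinuousLinearMap.coe_smul, LinearMap.det_smul,
    ContinuousLinearMap.coe_mul, map_mul, det_one_add_proj, norm_mul, norm_pow,
    RCLike.norm_ofReal, RCLike.norm_ofNat] at h4 hpos
  rw [abs_of_pos (by norm_num)] at h4
  have h5 : (4 / 5 : ℝ) ^ (2 * finrank 𝕜 W) ≤ (4 / 5) ^ finrank 𝕜 H :=
    pow_le_pow_of_le_one (by norm_num) (by norm_num) hW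
  have h6 : (1 : ℝ) < (4 / 5) ^ (2 * finrank 𝕜 W) * 2 ^ finrank 𝕜 W := by
    rw [pow_mul, ← mul_pow]
    exact one_lt_pow₀ (by norm_num) hW0.ne'
  have h7 : (1 : ℝ) < (4 / 5) ^ finrank 𝕜 H * 2 ^ finrank 𝕜 W :=
    h6.trans_le (by gcongr)
  nlinarith

/-- Dvoretzky-Rogers lemma in the dual. -/
theorem dvoretzky_rogers {X : Type*} [NormedAddCommGroup X] [NormedSpace 𝕜 X]
    (hX : ¬ FiniteDimensional 𝕜 X) (m : ℕ) :
    ∃ y : Fin m → X →L[𝕜] 𝕜, (∀ i, ‖y i‖ = 1) ∧ ∀ x, ∑ i, ‖y i x‖ ^ 2 ≤ 16 * ‖x‖ ^ 2 := by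
  have hY : ¬ FiniteDimensional 𝕜 (X →L[𝕜] 𝕜) := fun h =>
    hX (FiniteDimensional.of_injective (NormedSpace.inclusionInDoubleDualLi 𝕜 (E := X)).toLinearMap
      (NormedSpace.inclusionInDoubleDualLi 𝕜 (E := X)).injective)
  obtain ⟨v, hv⟩ : ∃ v : Fin (2 * m) → X →L[𝕜] 𝕜, LinearIndependent 𝕜 v := by
    refine exists_linearIndependent_of_le_rank ?_
    exact (Cardinal.natCast_lt_aleph0).le.trans
      (not_lt.1 fun h => hY (Module.rank_lt_aleph0_iff.1 h))
  let H := EuclideanSpace 𝕜 (Fin (2 * m))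
  let J : H →L[𝕜] (X →L[𝕜] 𝕜) := LinearMap.toContinuousLinearMap
    ((Fintype.linearCombination 𝕜 v).comp (WithLp.linearEquiv 2 𝕜 _).toLinearMap)
  have hJ : Function.Injective J :=
    (linearIndependent_iff_injective_fintypeLinearCombination.1 hv).comp (WithLp.linearEquiv 2 𝕜 _).injective
  obtain ⟨T, hT, hW⟩ := exists_good_op J hJ
  have hH : finrank 𝕜 H = 2 * m := by simp [H]
  have key : ∀ k ≤ m, ∃ h : Fin k → H, Orthonormal 𝕜 h ∧ ∀ i, 1 / 4 < ‖T (h i)‖ := by
    intro k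
    induction k with
    | zero => exact fun _ => ⟨Fin.elim0, by simp [orthonormal_iff_ite], fun i => i.elim0⟩
    | succ k ih =>
      intro hk
      obtain ⟨h, ho, hh⟩ := ih (by omega)
      let U := Submodule.span 𝕜 (Set.range h)
      have h1 : finrank 𝕜 U ≤ k := by simpa [Set.finrank] using finrank_range_le_card (R := 𝕜) h
      have h2 := U.finrank_add_finrank_orthogonal
      obtain ⟨w, hwU, hw1, hw⟩ := hW Uᗮ (by omega) (by omega)
      refine ⟨Fin.cons w h, ⟨fun i => ?_, fun i j hij => ?_⟩, fun i => ?_⟩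
      · refine Fin.cases hw1 (fun i => ho.1 i) i
      · induction i using Fin.cases with
        | zero =>
          induction j using Fin.cases with
          | zero => exact absurd rfl hij
          | succ j =>
            exact Submodule.inner_left_of_mem_orthogonal (K := U)
              (Submodule.subset_span (Set.mem_range_self j)) hwU
        | succ i =>
          induction j using Fin.cases with
          | zero =>
            exact Submodule.inner_right_of_mem_orthogonal (K := U)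
              (Submodule.subset_span (Set.mem_range_self i)) hwU
          | succ j => exact ho.2 fun e => hij (congrArg Fin.succ e)
      · refine Fin.cases hw (fun i => hh i) i
  obtain ⟨h, ho, hh⟩ := key m le_rfl
  have hn : ∀ i, 0 < ‖T (h i)‖ := fun i => lt_trans (by norm_num) (hh i)
  refine ⟨fun i => ((‖T (h i)‖⁻¹ : ℝ) : 𝕜) • T (h i), fun i => ?_, fun x => ?_⟩
  · rw [norm_smul, RCLike.norm_ofReal, abs_of_pos (inv_pos.2 (hn i)), inv_mul_cancel₀ (hn i).ne']
  · let φ : H →L[𝕜] 𝕜 := (ContinuousLinearMap.apply 𝕜 𝕜 x).comp T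
    have hφ : ‖φ‖ ≤ ‖x‖ := by
      refine φ.opNorm_le_bound (norm_nonneg _) fun w => ?_
      have := (T w).le_opNorm x
      have h2 := T.le_of_opNorm_le hT w
      show ‖T w x‖ ≤ _
      nlinarith [norm_nonneg x]
    obtain ⟨w, hw⟩ := (InnerProductSpace.toDual 𝕜 H).surjective φ
    have hwn : ‖w‖ ≤ ‖x‖ := by rw [← (InnerProductSpace.toDual 𝕜 H).norm_map w, hw]; exact hφ
    have hb := ho.sum_inner_products_le w (s := Finset.univ)
    have hi : ∀ i, ‖inner 𝕜 (h i) w‖ = ‖T (h i) x‖ := fun i => by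
      rw [norm_inner_symm, ← InnerProductSpace.toDual_apply_apply, hw]; rfl
    simp only [hi] at hb
    calc _ ≤ ∑ i, 16 * ‖T (h i) x‖ ^ 2 := Finset.sum_le_sum fun i _ => by
          rw [ContinuousLinearMap.smul_apply, norm_smul, RCLike.norm_ofReal,
            abs_of_pos (inv_pos.2 (hn i)), mul_pow]
          have : ‖T (h i)‖⁻¹ ≤ 4 := by
            rw [inv_le_comm₀ (hn i) (by norm_num)]
            linarith [hh i]
          have h3 : ‖T (h i)‖⁻¹ ^ 2 ≤ 4 ^ 2 := by gcongr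
          gcongr
          linarith
      _ ≤ 16 * ‖x‖ ^ 2 := by
          rw [← Finset.mul_sum]
          have : ‖w‖ ^ 2 ≤ ‖x‖ ^ 2 := by gcongr
          linarith

end Vale.Agent.P129
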