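import Mathlib

open MeasureTheory

namespace Vale.Agent.P129

/-- `X` has a separable infinite-dimensional quotient: there is a closed subspace `M` such that
`X / M` is separable and infinite-dimensional. -/
def HasSepQuot (𝕜 : Type*) [RCLike 𝕜] (X : Type*) [NormedAddCommGroup X] [NormedSpace 𝕜 X] :
    Prop :=
  ∃ M : Submodule 𝕜 X, IsClosed (M : Set X) ∧ TopologicalSpace.SeparableSpace (X ⧸ M) ∧
    ¬ FiniteDimensional 𝕜 (X ⧸ M)

/-- Lebesgue measure extends to a countably additive measure defined on all subsets of the real
line (equivalently: some cardinal at most the continuum is real-valued measurable). -/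
def LebesgueExtends : Prop :=
  ∃ μ : @Measure ℝ ⊤, ∀ s : Set ℝ, MeasurableSet s → μ s = volume s

/-- The covering number of the null ideal: the least cardinality of a family of Lebesgue null sets
covering the unit interval. -/
noncomputable def covNull : Cardinal.{0} :=
  sInf {c | ∃ F : Set (Set ℝ), (∀ s ∈ F, volume s = 0) ∧ Set.Icc (0 : ℝ) 1 ⊆ ⋃₀ F ∧
    Cardinal.mk F = c}

end Vale.Agent.P129
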