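import Vale.Agent.P129.Main

open Filter Topology MeasureTheory

namespace Vale.Agent.P129

variable {𝕜 : Type*} [RCLike 𝕜]

lemma exists_partition (N : ℕ) (hN : 0 < N) : ∃ r : ℝ → Fin N, ∀ i : Fin N,
    {t | r t = i} ∩ Set.Icc 0 1 ⊆ Set.Icc ((i : ℝ) / N) (((i : ℝ) + 1) / N) := by
  refine ⟨fun t => ⟨min ⌊N * t⌋₊ (N - 1), by omega⟩, fun i t ht => ?_⟩
  obtain ⟨h1, h2, h3⟩ := ht
  have hN' : (0 : ℝ) < N := by exact_mod_cast hN
  have h4 : min ⌊N * t⌋₊ (N - 1) = i := congrArg Fin.val h1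
  have h5 : (⌊N * t⌋₊ : ℝ) ≤ N * t := Nat.floor_le (by positivity)
  have h6 := Nat.lt_floor_add_one (N * t)
  rw [Set.mem_Icc, div_le_iff₀ hN', le_div_iff₀ hN']
  constructor
  · have : (i : ℝ) ≤ ⌊N * t⌋₊ := by exact_mod_cast h4 ▸ min_le_left _ _
    linarith
  · rcases min_choice ⌊N * t⌋₊ (N - 1) with h | h
    · have : (⌊N * t⌋₊ : ℝ) = i := by exact_mod_cast h ▸ h4
      linarith
    · have : (i : ℕ) + 1 = N := by omega
      have : (i : ℝ) + 1 = N := by exact_mod_cast this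
      nlinarith

lemma volume_piece (N : ℕ) (hN : 0 < N) (i : ℝ) :
    volume (Set.Icc (i / N) ((i + 1) / N)) = (N : ENNReal)⁻¹ := by
  rw [Real.volume_Icc, show (i + 1) / N - i / N = (N : ℝ)⁻¹ by ring,
    ENNReal.ofReal_inv_of_pos (by exact_mod_cast hN), ENNReal.ofReal_natCast]

theorem sq_of_extends (h : LebesgueExtends) {X : Type*} [NormedAddCommGroup X] [NormedSpace 𝕜 X]
    [CompleteSpace X] (hX : ¬ FiniteDimensional 𝕜 X) : HasSepQuot 𝕜 X := by
  obtain ⟨μ, hμ⟩ := h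
  have h1 : μ (Set.Icc 0 1) = 1 := by rw [hμ _ measurableSet_Icc]; simp
  have h2 : ∀ (N : ℕ), 0 < N → ∀ i : ℝ, μ (Set.Icc (i / N) ((i + 1) / N)) = (N : ENNReal)⁻¹ :=
    fun N hN i => by rw [hμ _ measurableSet_Icc, volume_piece N hN]
  clear hμ
  letI : MeasurableSpace ℝ := ⊤
  haveI : DiscreteMeasurableSpace ℝ := ⟨fun _ => trivial⟩
  haveI : IsProbabilityMeasure (μ.restrict (Set.Icc 0 1)) := ⟨by simpa using h1⟩
  refine sq_of_total hX (μ.restrict (Set.Icc 0 1)) fun N hN => ?_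
  obtain ⟨r, hr⟩ := exists_partition N hN
  refine ⟨r, fun i => ?_⟩
  rw [Measure.restrict_apply MeasurableSet.of_discrete, ← h2 N hN i]
  exact measure_mono (hr i)

universe u

theorem sq_of_lt_cov {X : Type u} [NormedAddCommGroup X] [NormedSpace 𝕜 X]
    [CompleteSpace X] (hX : ¬ FiniteDimensional 𝕜 X) (S : Set X) (hS : Dense S)
    (hc : Cardinal.mk S < Cardinal.lift.{u} covNull) : HasSepQuot 𝕜 X := by
  choose y hy1 hy using fun k : ℕ => dvoretzky_rogers hX (8 ^ k)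
  choose r hr using fun k : ℕ => exists_partition (8 ^ k) (by positivity)
  have hae := ae_bounded (volume.restrict (Set.Icc (0 : ℝ) 1)) (fun k => 8 ^ k) (fun _ => rfl) y hy r
    (fun k i => by
      rw [Measure.restrict_apply' measurableSet_Icc, ← volume_piece (8 ^ k) (by positivity) i]
      exact measure_mono (hr k i))
  let bad : S → Set ℝ := fun x =>
    {t | ¬ ∃ C : ℕ, ∀ k, ‖((2 : 𝕜) ^ k • y k (r k t)) x‖ ≤ C} ∩ Set.Icc 0 1
  have hnot : ¬ Set.Icc (0 : ℝ) 1 ⊆ ⋃₀ Set.range bad := by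
    intro hcov
    have h1 : covNull ≤ Cardinal.mk (Set.range bad) := csInf_le' ⟨_, by
      rintro _ ⟨x, rfl⟩
      rw [← Measure.restrict_apply' measurableSet_Icc]
      exact ae_iff.1 (hae x), hcov, rfl⟩
    have h2 := Cardinal.mk_range_le_lift (f := bad)
    rw [Cardinal.lift_uzero] at h2
    exact hc.not_ge ((Cardinal.lift_le.2 h1).trans h2)
  obtain ⟨t, ht, ht'⟩ := Set.not_subset.1 hnot
  refine sq_of_unbounded _ (unbounded_pow _ fun k => hy1 k (r k t)) (hS.mono fun x hx => ?_)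
  by_contra hcon
  refine ht' ⟨_, ⟨⟨x, hx⟩, rfl⟩, ?_, ht⟩
  rintro ⟨C, hC⟩
  exact hcon ⟨C, hC⟩

end Vale.Agent.P129
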