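import Vale.Agent.P129.DR
import Vale.Agent.P129.Crit

open Filter Topology MeasureTheory

namespace Vale.Agent.P129

lemma exists_seq_history {α : Type*} [Nonempty α] (P : ℕ → (ℕ → α) → Prop) (h0 : ∀ r, P 0 r)
    (hloc : ∀ n r r', (∀ i < n, r i = r' i) → P n r → P n r')
    (hstep : ∀ n r, P n r → ∃ s, P (n + 1) (Function.update r n s)) : ∃ r, ∀ n, P n r := by
  choose s hs using hstep
  let R : ∀ n, {r // P n r} := fun n => Nat.rec ⟨fun _ => Classical.arbitrary α, h0 _⟩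
    (fun n r => ⟨_, hs n r.1 r.2⟩) n
  have hR : ∀ n, (R (n + 1)).1 = Function.update (R n).1 n (s n (R n).1 (R n).2) := fun n => rfl
  have hc : ∀ i n, i < n → (R n).1 i = (R (i + 1)).1 i := by
    intro i n hin
    induction n, hin using Nat.le_induction with
    | base => rfl
    | succ n hn ih => rw [hR n, Function.update_of_ne (by omega), ih]
  exact ⟨fun i => (R (i + 1)).1 i, fun n => hloc n _ _ (fun i hi => hc i n hi) (R n).2⟩

section abstract

variable {Ω Y : Type*} [MeasurableSpace Ω] [DiscreteMeasurableSpace Ω] [MeasurableSpace Y]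
  [DiscreteMeasurableSpace Y] [AddCommMonoid Y]

/-- iterated distribution of random sums -/
noncomputable def lam (ν : Measure Ω) (w : ℕ → Ω → Y) : List ℕ → Y → Measure Y
  | [], a => Measure.dirac a
  | q :: l, a => ν.bind fun s => lam ν w l (a + w q s)

omit [DiscreteMeasurableSpace Y] in
lemma lam_prob (ν : Measure Ω) [IsProbabilityMeasure ν] (w : ℕ → Ω → Y) (l : List ℕ) (a : Y) :
    IsProbabilityMeasure (lam ν w l a) := by
  induction l generalizing a with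
  | nil => exact Measure.dirac.isProbabilityMeasure
  | cons q l ih =>
    refine ⟨?_⟩
    rw [lam, Measure.bind_apply MeasurableSet.univ Measurable.of_discrete.aemeasurable]
    simp [fun s => (ih (a + w q s)).measure_univ]

theorem exists_free_seq (ν : Measure Ω) [IsProbabilityMeasure ν] (w : ℕ → Ω → Y)
    (G : Ω → Y → Prop) (hG : MeasurableSet {p : Y × Ω | G p.2 p.1})
    (hae : ∀ a, ∀ᵐ r ∂ν, G r a) :
    ∃ r : ℕ → Ω, ∀ (F : Finset ℕ) (c : ℕ →₀ ℕ) (j : ℕ), j ∉ F →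
      G (r j) (∑ i ∈ F, w (c i) (r i)) := by
  let Good : Ω → Y → Prop := fun r a => ∀ l, ∀ᵐ b ∂lam ν w l a, G r b
  have hα : ∀ a, ∀ᵐ r ∂ν, Good r a := fun a => by
    refine ae_all_iff.2 fun l => ?_
    haveI := lam_prob ν w l a
    exact (Measure.ae_ae_comm (p := fun b r => G r b) hG).1 (Eventually.of_forall hae)
  have hβ : ∀ r a q, ∀ᵐ s ∂ν, Good r a → Good r (a + w q s) := fun r a q => by
    by_cases h : Good r a
    · have : ∀ᵐ s ∂ν, Good r (a + w q s) := ae_all_iff.2 fun l =>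
        Measure.ae_ae_of_ae_bind Measurable.of_discrete.aemeasurable (h (q :: l))
      exact this.mono fun s hs _ => hs
    · exact Eventually.of_forall fun s h' => absurd h' h
  have hγ : ∀ r a, Good r a → G r a := fun r a h => by
    have := h []
    rwa [lam, ae_dirac_iff MeasurableSet.of_discrete] at this
  haveI : Nonempty Ω := nonempty_of_isProbabilityMeasure ν
  obtain ⟨r, hr⟩ := exists_seq_history (fun n (r : ℕ → Ω) => ∀ (F : Finset ℕ) (c : ℕ →₀ ℕ) (j : ℕ),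
      (∀ i ∈ F, i < n) → j < n → j ∉ F → Good (r j) (∑ i ∈ F, w (c i) (r i)))
    (fun r F c j _ hj => absurd hj (Nat.not_lt_zero _))
    (fun n r r' h hP F c j hF hj hjF => by
      rw [← h j hj, ← Finset.sum_congr rfl fun i hi => congrArg (w (c i)) (h i (hF i hi))]
      exact hP F c j hF hj hjF)
    (fun n r hP => by
      have e1 : ∀ᵐ s ∂ν, ∀ (F : Finset ℕ) (c : ℕ →₀ ℕ), Good s (∑ i ∈ F, w (c i) (r i)) :=
        ae_all_iff.2 fun F => ae_all_iff.2 fun c => hα _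
      have e2 : ∀ᵐ s ∂ν, ∀ (F : Finset ℕ) (c : ℕ →₀ ℕ) (j q : ℕ),
          Good (r j) (∑ i ∈ F, w (c i) (r i)) → Good (r j) (∑ i ∈ F, w (c i) (r i) + w q s) :=
        ae_all_iff.2 fun F => ae_all_iff.2 fun c => ae_all_iff.2 fun j => ae_all_iff.2 fun q =>
          hβ _ _ _
      obtain ⟨s, h1, h2⟩ := (e1.and e2).exists
      refine ⟨s, fun F c j hF hj hjF => ?_⟩
      have hs : ∀ F' : Finset ℕ, n ∉ F' → ∑ i ∈ F', w (c i) (Function.update r n s i) =
          ∑ i ∈ F', w (c i) (r i) := fun F' hn => Finset.sum_congr rfl fun i hi => by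
        rw [Function.update_of_ne (by rintro rfl; exact hn hi)]
      by_cases hn : n ∈ F
      · have hjn : j ≠ n := by rintro rfl; exact hjF hn
        rw [← Finset.sum_erase_add _ _ hn, hs _ (Finset.notMem_erase _ _),
          Function.update_of_ne hjn, Function.update_self]
        refine h2 _ _ _ _ (hP _ _ _ (fun i hi => ?_) (by omega)
          fun h => hjF (Finset.mem_of_mem_erase h))
        have := hF i (Finset.mem_of_mem_erase hi)
        have := Finset.ne_of_mem_erase hi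
        omega
      · rw [hs _ hn]
        rcases eq_or_ne j n with rfl | hjn
        · rw [Function.update_self]; exact h1 _ _
        · rw [Function.update_of_ne hjn]
          refine hP _ _ _ (fun i hi => ?_) (by omega) hjF
          have := hF i hi
          have : i ≠ n := by rintro rfl; exact hn hi
          omega)
  refine ⟨r, fun F c j hj => hγ _ _ (hr (F.sup id + j + 1) F c j (fun i hi => ?_) (by omega) hj)⟩
  have : i ≤ F.sup id := Finset.le_sup (f := id) hi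
  omega

end abstract

variable {𝕜 : Type*} [RCLike 𝕜] {X : Type*} [NormedAddCommGroup X] [NormedSpace 𝕜 X]

/-- strongly unconditional sequences of functionals -/
def Free (z : ℕ → X →L[𝕜] 𝕜) : Prop :=
  ∀ (F : Finset ℕ) (a : ℕ → 𝕜), ∃ x : X, ‖x‖ ≤ 1 ∧ (∀ i ∉ F, z i x = 0) ∧
    ‖∑ i ∈ F, a i • z i‖ ≤ 2 * ‖(∑ i ∈ F, a i • z i) x‖

lemma exists_norming (ψ : X →L[𝕜] 𝕜) : ∃ x : X, ‖x‖ ≤ 1 ∧ 3 / 4 * ‖ψ‖ ≤ ‖ψ x‖ := by
  rcases (norm_nonneg ψ).eq_or_lt with h | h
  · exact ⟨0, by simp, by simp [← h]⟩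
  · obtain ⟨x, hx, hx'⟩ := ψ.exists_lt_apply_of_lt_opNorm (r := 3 / 4 * ‖ψ‖) (by linarith)
    exact ⟨x, hx.le, hx'.le⟩

/-- the random dense-subspace candidates -/
lemma ae_bounded {Ω : Type*} [MeasurableSpace Ω] (ν : Measure Ω) (N : ℕ → ℕ)
    (hN : ∀ k, N k = 8 ^ k) (y : ∀ k, Fin (N k) → X →L[𝕜] 𝕜)
    (hy : ∀ k x, ∑ i, ‖y k i x‖ ^ 2 ≤ 16 * ‖x‖ ^ 2) (r : ∀ k, Ω → Fin (N k))
    (hr : ∀ k i, ν {t | r k t = i} ≤ (N k : ENNReal)⁻¹) (x : X) :
    ∀ᵐ t ∂ν, ∃ C : ℕ, ∀ k, ‖((2 : 𝕜) ^ k • y k (r k t)) x‖ ≤ C := by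
  classical
  let bad : ℕ → Set Ω := fun k => {t | ‖x‖ < ‖((2 : 𝕜) ^ k • y k (r k t)) x‖}
  have hbad : ∀ k, ν (bad k) ≤ 16 * (2 : ENNReal)⁻¹ ^ k := by
    intro k
    let S := Finset.univ.filter fun i => ‖x‖ < ‖((2 : 𝕜) ^ k • y k i) x‖
    have hS : (S.card : ℝ) ≤ 16 * 4 ^ k := by
      rcases eq_or_ne x 0 with rfl | hx
      · have : S = ∅ := by simp [S]
        rw [this]; simp
      have hx' : 0 < ‖x‖ ^ 2 := by positivity
      have h1 : ∑ i ∈ S, ‖x‖ ^ 2 ≤ ∑ i, 4 ^ k * ‖y k i x‖ ^ 2 := by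
        refine (Finset.sum_le_sum fun i hi => ?_).trans
          (Finset.sum_le_sum_of_subset_of_nonneg (Finset.subset_univ S) fun i _ _ => by positivity)
        have h2 := (Finset.mem_filter.1 hi).2
        simp only [ContinuousLinearMap.smul_apply, norm_smul, norm_pow, RCLike.norm_ofNat] at h2
        calc _ ≤ (2 ^ k * ‖y k i x‖) ^ 2 := by gcongr
          _ = _ := by rw [mul_pow, ← pow_mul, mul_comm k, pow_mul]; norm_num
      rw [← Finset.mul_sum, Finset.sum_const, nsmul_eq_mul] at h1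
      have h3 := mul_le_mul_of_nonneg_left (hy k x) (show (0 : ℝ) ≤ 4 ^ k by positivity)
      refine le_of_mul_le_mul_right ?_ hx'
      linarith
    have hS' : (S.card : ENNReal) ≤ 16 * 4 ^ k := by
      have : S.card ≤ 16 * 4 ^ k := by exact_mod_cast hS
      exact_mod_cast this
    calc ν (bad k) ≤ ν (⋃ i ∈ S, {t | r k t = i}) := measure_mono fun t ht => by
          simp only [Set.mem_iUnion]
          exact ⟨r k t, Finset.mem_filter.2 ⟨Finset.mem_univ _, ht⟩, rfl⟩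
      _ ≤ ∑ i ∈ S, ν {t | r k t = i} := measure_biUnion_finset_le _ _
      _ ≤ ∑ i ∈ S, (N k : ENNReal)⁻¹ := Finset.sum_le_sum fun i _ => hr k i
      _ ≤ 16 * 4 ^ k * (N k : ENNReal)⁻¹ := by
          rw [Finset.sum_const, nsmul_eq_mul]; gcongr
      _ = 16 * (2 : ENNReal)⁻¹ ^ k := by
          rw [hN, mul_assoc]
          congr 1
          push_cast
          rw [ENNReal.inv_pow, ← mul_pow]
          congr 1
          rw [show (8 : ENNReal) = 4 * 2 by norm_num, ENNReal.mul_inv (by simp) (by simp),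
            ← mul_assoc, ENNReal.mul_inv_cancel (by simp) (by simp), one_mul]
  have hsum : ∑' k, ν (bad k) ≠ ⊤ := by
    refine ne_top_of_le_ne_top ?_ (ENNReal.tsum_le_tsum hbad)
    rw [ENNReal.tsum_mul_left, ENNReal.tsum_geometric]
    exact ENNReal.mul_ne_top (by simp) (by simp)
  filter_upwards [ae_eventually_notMem hsum] with t ht
  have hb : IsBoundedUnder (· ≤ ·) atTop fun k => ‖((2 : 𝕜) ^ k • y k (r k t)) x‖ :=
    ⟨‖x‖, eventually_map.2 (ht.mono fun k hk => not_lt.1 hk)⟩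
  obtain ⟨C, hC⟩ := hb.bddAbove_range
  obtain ⟨C', hC'⟩ := exists_nat_ge C
  exact ⟨C', fun k => (hC ⟨k, rfl⟩).trans hC'⟩

lemma unbounded_pow (y : ℕ → X →L[𝕜] 𝕜) (hy : ∀ k, ‖y k‖ = 1) (B : ℝ) :
    ∃ k, B < ‖(2 : 𝕜) ^ k • y k‖ := by
  obtain ⟨k, hk⟩ := pow_unbounded_of_one_lt B (show (1 : ℝ) < 2 by norm_num)
  exact ⟨k, by simpa [norm_smul, hy] using hk⟩

lemma exists_annihilator (g : ℕ → X →L[𝕜] 𝕜) (h : ¬ Dense {x | ∃ C, ∀ k, ‖g k x‖ ≤ C}) :
    ∃ z : X →L[𝕜] 𝕜, ‖z‖ = 1 ∧ ∀ x, (∃ C, ∀ k, ‖g k x‖ ≤ C) → z x = 0 := by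
  let D : Submodule 𝕜 X :=
    { carrier := {x | ∃ C, ∀ k, ‖g k x‖ ≤ C}
      add_mem' := by
        rintro a b ⟨C, hC⟩ ⟨C', hC'⟩
        exact ⟨C + C', fun k => by rw [map_add]; exact norm_add_le_of_le (hC k) (hC' k)⟩
      zero_mem' := ⟨0, by simp⟩
      smul_mem' := by
        rintro c a ⟨C, hC⟩
        exact ⟨‖c‖ * C, fun k => by rw [map_smul, norm_smul]; gcongr; exact hC k⟩ }
  obtain ⟨x, hx⟩ : ∃ x, x ∉ D.topologicalClosure := by
    by_contra hc
    push Not at hc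
    exact h hc
  haveI : IsClosed (D.topologicalClosure : Set X) := D.isClosed_topologicalClosure
  have hq : (D.topologicalClosure.mkQ x) ≠ 0 := by
    simpa using hx
  obtain ⟨f, -, hf⟩ := exists_dual_vector 𝕜 _ (norm_ne_zero_iff.2 hq)
  let z : X →L[𝕜] 𝕜 := f.comp ⟨D.topologicalClosure.mkQ, continuous_quot_mk⟩
  have hz : z ≠ 0 := by
    intro h0
    have : z x = 0 := by simp [h0]
    have h2 : z x = f (D.topologicalClosure.mkQ x) := rfl
    rw [h2, hf] at this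
    exact hq (by simpa using this)
  have hn : 0 < ‖z‖ := norm_pos_iff.2 hz
  refine ⟨((‖z‖⁻¹ : ℝ) : 𝕜) • z, ?_, fun v hv => ?_⟩
  · rw [norm_smul, RCLike.norm_ofReal, abs_of_pos (inv_pos.2 hn), inv_mul_cancel₀ hn.ne']
  · have h2 : z v = f (D.topologicalClosure.mkQ v) := rfl
    have h3 : D.topologicalClosure.mkQ v = 0 :=
      (Submodule.Quotient.mk_eq_zero _).2 (D.le_topologicalClosure hv)
    simp [h2, h3]

theorem sq_or_free [CompleteSpace X] (hX : ¬ FiniteDimensional 𝕜 X) {Ω : Type*}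
    [MeasurableSpace Ω] [DiscreteMeasurableSpace Ω] (ν : Measure Ω) [IsProbabilityMeasure ν]
    (hν : ∀ N : ℕ, 0 < N → ∃ r : Ω → Fin N, ∀ i, ν {t | r t = i} ≤ (N : ENNReal)⁻¹) :
    HasSepQuot 𝕜 X ∨ ∃ z : ℕ → X →L[𝕜] 𝕜, (∀ i, ‖z i‖ = 1) ∧ Free z := by
  choose y hy1 hy using fun k : ℕ => dvoretzky_rogers hX (8 ^ k)
  choose r hr using fun k : ℕ => hν (8 ^ k) (by positivity)
  by_cases hd : ∃ t, Dense {x | ∃ C, ∀ k, ‖((2 : 𝕜) ^ k • y k (r k t)) x‖ ≤ C}
  · obtain ⟨t, ht⟩ := hd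
    exact Or.inl (sq_of_unbounded _ (unbounded_pow _ fun k => hy1 k _) ht)
  right
  push Not at hd
  choose z hz1 hz using fun t => exists_annihilator _ (hd t)
  choose g hg1 hg using exists_norming (𝕜 := 𝕜) (X := X)
  let q := TopologicalSpace.denseSeq 𝕜
  letI : MeasurableSpace (X →L[𝕜] 𝕜) := ⊤
  haveI : DiscreteMeasurableSpace (X →L[𝕜] 𝕜) := ⟨fun _ => trivial⟩
  obtain ⟨s, hs⟩ := exists_free_seq ν (fun n t => q n • z t)
    (fun t ψ => ∃ C : ℕ, ∀ k, ‖((2 : 𝕜) ^ k • y k (r k t)) (g ψ)‖ ≤ C) (by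
      simp only [Set.setOf_exists, Set.setOf_forall]
      refine MeasurableSet.iUnion fun C => MeasurableSet.iInter fun k => ?_
      have : {p : (X →L[𝕜] 𝕜) × Ω | ‖((2 : 𝕜) ^ k • y k (r k p.2)) (g p.1)‖ ≤ C} =
          ⋃ i, {ψ | ‖((2 : 𝕜) ^ k • y k i) (g ψ)‖ ≤ C} ×ˢ {t | r k t = i} := by
        ext p; simp
      rw [this]
      exact MeasurableSet.iUnion fun i => MeasurableSet.of_discrete.prod MeasurableSet.of_discrete)
    (fun ψ => ae_bounded ν (fun k => 8 ^ k) (fun _ => rfl) y hy r hr (g ψ))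
  refine ⟨fun i => z (s i), fun i => hz1 _, fun F a => ?_⟩
  set f := ∑ i ∈ F, a i • z (s i) with hf
  rcases (norm_nonneg f).eq_or_lt with h0 | h0
  · exact ⟨0, by simp, by simp, by simp [← h0]⟩
  have hδ : 0 < ‖f‖ / 8 / (F.card + 1) := by positivity
  choose c hc using fun i => (TopologicalSpace.denseRange_denseSeq 𝕜).exists_dist_lt (a i) hδ
  let c' : ℕ →₀ ℕ := Finsupp.indicator F fun i _ => c i
  set ψ := ∑ i ∈ F, q (c' i) • z (s i) with hψ
  have hclose : ‖f - ψ‖ ≤ ‖f‖ / 8 := by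
    have : f - ψ = ∑ i ∈ F, (a i - q (c i)) • z (s i) := by
      rw [hf, hψ, ← Finset.sum_sub_distrib]
      refine Finset.sum_congr rfl fun i hi => ?_
      have : c' i = c i := Finsupp.indicator_of_mem hi _
      ext v
      simp [this, sub_mul]
    rw [this]
    refine (norm_sum_le_of_le F (n := fun _ => ‖f‖ / 8 / (F.card + 1)) fun i _ => ?_).trans ?_
    · rw [norm_smul, hz1, mul_one, ← dist_eq_norm]; exact (hc i).le
    · rw [Finset.sum_const, nsmul_eq_mul, mul_div_assoc', div_le_iff₀ (by positivity)]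
      nlinarith
  refine ⟨g ψ, hg1 _, fun i hi => hz _ _ ?_, ?_⟩
  · obtain ⟨C, hC⟩ := hs F c' i hi
    exact ⟨C, hC⟩
  · have h1 := hg ψ
    have h2 : ‖ψ (g ψ)‖ ≤ ‖f (g ψ)‖ + ‖f - ψ‖ := by
      have e : ψ (g ψ) = f (g ψ) - (f - ψ) (g ψ) := by simp
      rw [e]
      refine (norm_sub_le _ _).trans ?_
      have := (f - ψ).le_opNorm (g ψ)
      nlinarith [hg1 ψ, norm_nonneg (f - ψ)]
    have h3 : ‖f‖ ≤ ‖ψ‖ + ‖f - ψ‖ := by
      simpa using norm_add_le ψ (f - ψ)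
    linarith

end Vale.Agent.P129
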