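import Vale.Agent.P129.CaseA

open Filter Topology

namespace Vale.Agent.P129

variable {𝕜 : Type*} [RCLike 𝕜] {X : Type*} [NormedAddCommGroup X] [NormedSpace 𝕜 X]

lemma exact_preimage [CompleteSpace X] {W : Type*} [NormedAddCommGroup W] [NormedSpace 𝕜 W]
    (T : X →L[𝕜] W) (C : ℝ) (hC : 0 ≤ C)
    (h : ∀ b, ∃ v, ‖v‖ ≤ C * ‖b‖ ∧ ‖T v - b‖ ≤ 1 / 2 * ‖b‖) (b : W) :
    ∃ v, ‖v‖ ≤ 2 * C * ‖b‖ ∧ T v = b := by
  choose g hg1 hg2 using h
  let u : ℕ → W := fun n => (fun y => y - T (g y))^[n] b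
  have hu : ∀ n, u (n + 1) = u n - T (g (u n)) := fun n => Function.iterate_succ_apply' _ _ _
  have hn : ∀ n, ‖u n‖ ≤ (1 / 2) ^ n * ‖b‖ := by
    intro n
    induction n with
    | zero => simp [u]
    | succ n ih =>
      rw [hu, norm_sub_rev, pow_succ]
      linarith [hg2 (u n)]
  have hb : ∀ n, ‖g (u n)‖ ≤ (1 / 2) ^ n * (C * ‖b‖) := fun n => by
    have := mul_le_mul_of_nonneg_left (hn n) hC
    linarith [hg1 (u n)]
  have hg := hasSum_geometric_two.mul_right (C * ‖b‖)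
  have hs : Summable fun n => g (u n) := Summable.of_norm_bounded hg.summable hb
  refine ⟨∑' n, g (u n), (tsum_of_norm_bounded hg hb).trans_eq (by ring), ?_⟩
  have h1 := (T.hasSum hs.hasSum).tendsto_sum_nat
  have h2 : ∀ n, ∑ i ∈ Finset.range n, T (g (u i)) = b - u n := by
    intro n
    induction n with
    | zero => simp [u]
    | succ n ih => rw [Finset.sum_range_succ, ih, hu]; abel
  simp only [h2] at h1
  have h3 : Tendsto u atTop (𝓝 0) := by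
    refine squeeze_zero_norm hn ?_
    simpa using (tendsto_pow_atTop_nhds_zero_of_lt_one (r := (1 / 2 : ℝ)) (by norm_num)
      (by norm_num)).mul_const ‖b‖
  simpa using tendsto_nhds_unique h1 (tendsto_const_nhds.sub h3)

theorem sq_of_l2 [CompleteSpace X] (ρ : ℕ → X →L[𝕜] 𝕜) (c : ℝ) (hc : 0 < c)
    (hlow : ∀ (J : ℕ) (a : ℕ → 𝕜), c ^ 2 * ∑ j ∈ Finset.range J, ‖a j‖ ^ 2 ≤
      ‖∑ j ∈ Finset.range J, a j • ρ j‖ ^ 2)
    (hup : ∀ (J : ℕ) (x : X), ∑ j ∈ Finset.range J, ‖ρ j x‖ ^ 2 ≤ ‖x‖ ^ 2) :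
    HasSepQuot 𝕜 X := by
  have hup' : ∀ (x : X) (s : Finset ℕ),
      ∑ j ∈ s, ‖ρ j x‖ ^ (2 : ENNReal).toReal ≤ ‖x‖ ^ (2 : ENNReal).toReal := fun x s => by
    simp only [ENNReal.toReal_ofNat, Real.rpow_ofNat]
    refine (Finset.sum_le_sum_of_subset_of_nonneg (t := Finset.range (s.sup id + 1))
      (fun i hi => ?_) fun _ _ _ => by positivity).trans (hup _ x)
    exact Finset.mem_range.2 (Nat.lt_succ_of_le (Finset.le_sup (f := id) hi))
  let H := lp (fun _ : ℕ => 𝕜) 2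
  let R0 : X →ₗ[𝕜] H :=
    { toFun := fun x => ⟨fun j => ρ j x, memℓp_gen' (hup' x)⟩
      map_add' := fun x y => Subtype.ext (funext fun j => map_add (ρ j) x y)
      map_smul' := fun a x => Subtype.ext (funext fun j => map_smul (ρ j) a x) }
  let R : X →L[𝕜] H := R0.mkContinuous 1 fun x => by
    rw [one_mul]
    exact lp.norm_le_of_forall_sum_le (by simp) (norm_nonneg _) (hup' x)
  have hR : ∀ x j, R x j = ρ j x := fun x j => rfl
  have key : ∀ w : H, c * ‖w‖ ≤ ‖(innerSL 𝕜 w).comp R‖ := by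
    intro w
    have hw := (lp.hasSum_single (by simp) w).tendsto_sum_nat
    have hcont : Continuous fun w : H => ‖(innerSL 𝕜 w).comp R‖ := by fun_prop
    refine le_of_tendsto_of_tendsto' ((hw.norm).const_mul c) ((hcont.tendsto w).comp hw) fun J => ?_
    have e : (innerSL 𝕜 (∑ j ∈ Finset.range J, lp.single 2 j (w j) : H)).comp R =
        ∑ j ∈ Finset.range J, (starRingEnd 𝕜) (w j) • ρ j := by
      ext x
      simp only [ContinuousLinearMap.comp_apply, innerSL_apply_apply,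
        ContinuousLinearMap.sum_apply, ContinuousLinearMap.smul_apply]
      refine (sum_inner _ _ _).trans (Finset.sum_congr rfl fun j _ =>
        (lp.inner_single_left (𝕜 := 𝕜) j (w j) (R x)).trans ?_)
      simp [hR, mul_comm]
    have e2 := lp.norm_sum_single (p := 2) (E := fun _ : ℕ => 𝕜) (by simp) w (Finset.range J)
    simp only [ENNReal.toReal_ofNat, Real.rpow_ofNat] at e2
    have h3 := hlow J fun j => (starRingEnd 𝕜) (w j)
    simp only [RCLike.norm_conj] at h3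
    rw [← e2, ← mul_pow, ← e] at h3
    exact (pow_le_pow_iff_left₀ (by positivity) (norm_nonneg _) two_ne_zero).1 h3
  have hsurj := exact_preimage R (1 / c) (by positivity) fun b => by
    rcases eq_or_ne b 0 with rfl | hb
    · exact ⟨0, by simp, by simp⟩
    have hb' : 0 < ‖b‖ := norm_pos_iff.2 hb
    obtain ⟨v, h1, h2⟩ := approx_preimage R b (1 / c * ‖b‖) (by positivity) (fun ψ => by
      obtain ⟨w, rfl⟩ := (InnerProductSpace.toDual 𝕜 H).surjective ψ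
      have h1 : ‖InnerProductSpace.toDual 𝕜 H w b‖ ≤ ‖w‖ * ‖b‖ := norm_inner_le_norm w b
      have h2 : c * ‖w‖ ≤ ‖(InnerProductSpace.toDual 𝕜 H w).comp R‖ := key w
      refine h1.trans ?_
      calc ‖w‖ * ‖b‖ = 1 / c * ‖b‖ * (c * ‖w‖) := by field_simp
        _ ≤ _ := by gcongr) (1 / 2 * ‖b‖) (by positivity)
    exact ⟨v, h1, h2.le⟩
  have hρ : ∀ j, c ≤ ‖ρ j‖ := fun j => by
    have := hlow (j + 1) (Pi.single j 1)
    rw [Finset.sum_eq_single j (fun i _ hi => by simp [hi]) (by simp),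
      Finset.sum_eq_single j (fun i _ hi => by ext; simp [hi]) (by simp)] at this
    simp only [Pi.single_eq_same, norm_one, one_pow, mul_one, norm_smul, one_mul] at this
    exact (pow_le_pow_iff_left₀ hc.le (norm_nonneg _) two_ne_zero).1 this
  refine sq_of_unbounded (fun k : ℕ => ((k + 1 : ℝ) : 𝕜) • ρ k)
    (unbounded_succ ρ c hc hρ) (Metric.dense_iff.2 fun x η hη => ?_)
  have hw := (lp.hasSum_single (by simp) (R x)).tendsto_sum_nat
  have h1 : Tendsto (fun J => 2 * (1 / c) * ‖R x - ∑ j ∈ Finset.range J, lp.single 2 j (R x j)‖)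
      atTop (𝓝 0) := by
    simpa using ((tendsto_const_nhds (x := R x)).sub hw).norm.const_mul (2 * (1 / c))
  obtain ⟨J, hJ⟩ := (h1.eventually (gt_mem_nhds hη)).exists
  obtain ⟨v, hv1, hv2⟩ := hsurj (R x - ∑ j ∈ Finset.range J, lp.single 2 j (R x j))
  refine ⟨x - v, ?_, bdd_of_eventually _ _ J 0 fun i hi => ?_⟩
  · rw [mem_ball_iff_norm]
    simp only [sub_sub_cancel_left, norm_neg]
    exact hv1.trans_lt hJ
  · have : ρ i (x - v) = 0 := by
      rw [← hR, map_sub, hv2, sub_sub_cancel, lp.coeFn_sum, Finset.sum_apply]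
      refine Finset.sum_eq_zero fun j hj => lp.single_apply_ne _ _ _ ?_
      have := Finset.mem_range.1 hj
      omega
    simp [this]

/-- Rademacher functions on the integers -/
noncomputable def rad (𝕜 : Type*) [RCLike 𝕜] (j k : ℕ) : 𝕜 := if k.testBit j then -1 else 1

lemma norm_rad (j k : ℕ) : ‖rad 𝕜 j k‖ = 1 := by unfold rad; split_ifs <;> simp

lemma rad_sum_succ (a : ℕ → 𝕜) (L : ℕ) (g : 𝕜 → ℝ) :
    ∑ k ∈ Finset.range (2 ^ (L + 1)), g (∑ j ∈ Finset.range (L + 1), a j * rad 𝕜 j k) =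
      ∑ k ∈ Finset.range (2 ^ L), (g (∑ j ∈ Finset.range L, a j * rad 𝕜 j k + a L) +
        g (∑ j ∈ Finset.range L, a j * rad 𝕜 j k - a L)) := by
  rw [pow_succ, mul_two, Finset.sum_range_add, Finset.sum_add_distrib]
  congr 1
  · refine Finset.sum_congr rfl fun k hk => ?_
    rw [Finset.sum_range_succ, rad, Nat.testBit_lt_two_pow (Finset.mem_range.1 hk)]
    simp
  · refine Finset.sum_congr rfl fun k hk => ?_
    rw [Finset.sum_range_succ, rad, Nat.testBit_two_pow_add_eq,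
      Nat.testBit_lt_two_pow (Finset.mem_range.1 hk)]
    simp only [Bool.not_false, if_true, mul_neg, mul_one, ← sub_eq_add_neg]
    congr 2
    refine Finset.sum_congr rfl fun j hj => ?_
    rw [rad, rad, Nat.testBit_two_pow_add_gt (Finset.mem_range.1 hj)]

lemma rad_two (a : ℕ → 𝕜) (L : ℕ) :
    ∑ k ∈ Finset.range (2 ^ L), ‖∑ j ∈ Finset.range L, a j * rad 𝕜 j k‖ ^ 2 =
      2 ^ L * ∑ j ∈ Finset.range L, ‖a j‖ ^ 2 := by
  induction L with
  | zero => simp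
  | succ L ih =>
    rw [rad_sum_succ a L fun t => ‖t‖ ^ 2]
    have : ∀ f : 𝕜, ‖f + a L‖ ^ 2 + ‖f - a L‖ ^ 2 = 2 * ‖f‖ ^ 2 + 2 * ‖a L‖ ^ 2 := fun f => by
      have := parallelogram_law_with_norm 𝕜 f (a L)
      linarith
    simp only [this]
    rw [Finset.sum_add_distrib, ← Finset.mul_sum, ih, Finset.sum_range_succ]
    simp
    ring

lemma rad_four (a : ℕ → 𝕜) (L : ℕ) :
    ∑ k ∈ Finset.range (2 ^ L), ‖∑ j ∈ Finset.range L, a j * rad 𝕜 j k‖ ^ 4 ≤
      3 * 2 ^ L * (∑ j ∈ Finset.range L, ‖a j‖ ^ 2) ^ 2 := by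
  induction L with
  | zero => simp
  | succ L ih =>
    rw [rad_sum_succ a L fun t => ‖t‖ ^ 4]
    have : ∀ f : 𝕜, ‖f + a L‖ ^ 4 + ‖f - a L‖ ^ 4 ≤
        2 * ‖f‖ ^ 4 + 12 * ‖a L‖ ^ 2 * ‖f‖ ^ 2 + 2 * ‖a L‖ ^ 4 := fun f => by
      have h1 := norm_add_sq (𝕜 := 𝕜) f (a L)
      have h2 := norm_sub_sq (𝕜 := 𝕜) f (a L)
      have h3 : |RCLike.re (inner 𝕜 f (a L))| ≤ ‖f‖ * ‖a L‖ :=
        (RCLike.abs_re_le_norm _).trans (norm_inner_le_norm _ _)
      have h4 : RCLike.re (inner 𝕜 f (a L)) ^ 2 ≤ (‖f‖ * ‖a L‖) ^ 2 := by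
        rw [← sq_abs]; gcongr
      have e1 : ‖f + a L‖ ^ 4 = (‖f + a L‖ ^ 2) ^ 2 := by ring
      have e2 : ‖f - a L‖ ^ 4 = (‖f - a L‖ ^ 2) ^ 2 := by ring
      rw [e1, e2, h1, h2]
      nlinarith
    refine (Finset.sum_le_sum fun k _ => this _).trans ?_
    rw [Finset.sum_add_distrib, Finset.sum_add_distrib, ← Finset.mul_sum, ← Finset.mul_sum,
      rad_two, Finset.sum_range_succ]
    simp only [Finset.sum_const, Finset.card_range, nsmul_eq_mul, Nat.cast_pow, Nat.cast_ofNat]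
    have h5 : (0 : ℝ) ≤ 2 ^ L * ‖a L‖ ^ 4 := by positivity
    rw [pow_succ (2 : ℝ) L]
    nlinarith

lemma rad_upper (a : ℕ → 𝕜) (L : ℕ) :
    (∑ k ∈ Finset.range (2 ^ L), ‖∑ j ∈ Finset.range L, a j * rad 𝕜 j k‖) ^ 2 ≤
      (2 ^ L) ^ 2 * ∑ j ∈ Finset.range L, ‖a j‖ ^ 2 := by
  refine sq_sum_le_card_mul_sum_sq.trans_eq ?_
  rw [rad_two]
  simp
  ring

lemma rad_lower (a : ℕ → 𝕜) (L : ℕ) :
    (2 ^ L) ^ 2 * ∑ j ∈ Finset.range L, ‖a j‖ ^ 2 ≤
      25 * (∑ k ∈ Finset.range (2 ^ L), ‖∑ j ∈ Finset.range L, a j * rad 𝕜 j k‖) ^ 2 := by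
  set s := ∑ j ∈ Finset.range L, ‖a j‖ ^ 2 with hs
  have hs0 : 0 ≤ s := by positivity
  rcases hs0.eq_or_lt with h0 | h0
  · rw [← h0]; simp only [mul_zero]; positivity
  set σ := √s
  have hσ : 0 < σ := Real.sqrt_pos.2 h0
  have hσ2 : σ ^ 2 = s := Real.sq_sqrt hs0
  have hp : ∀ t : ℝ, 0 ≤ t → 9 * σ ^ 2 * t ^ 2 ≤ 27 * σ ^ 3 * t + t ^ 4 := fun t ht => by
    rcases le_total t (3 * σ) with h | h
    · have : 9 * σ ^ 2 * t * t ≤ 9 * σ ^ 2 * t * (3 * σ) := by gcongr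
      nlinarith [pow_nonneg ht 4]
    · have : (3 * σ) ^ 2 * t ^ 2 ≤ t ^ 2 * t ^ 2 := by gcongr
      have : 0 ≤ σ ^ 3 * t := by positivity
      nlinarith
  have h1 := Finset.sum_le_sum fun k (_ : k ∈ Finset.range (2 ^ L)) =>
    hp ‖∑ j ∈ Finset.range L, a j * rad 𝕜 j k‖ (norm_nonneg _)
  rw [Finset.sum_add_distrib, ← Finset.mul_sum, ← Finset.mul_sum, rad_two, ← hs] at h1
  have h2 := rad_four a L
  rw [← hs] at h2
  set E := ∑ k ∈ Finset.range (2 ^ L), ‖∑ j ∈ Finset.range L, a j * rad 𝕜 j k‖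
  rw [← hσ2] at h1 h2 ⊢
  have h3 : σ ^ 3 * (6 * (2 ^ L * σ)) ≤ σ ^ 3 * (27 * E) := by nlinarith
  have h4 := le_of_mul_le_mul_left h3 (by positivity)
  have h5 : (0 : ℝ) ≤ 2 ^ L * σ := by positivity
  have h6 : 2 ^ L * σ ≤ 5 * E := by linarith
  calc _ = (2 ^ L * σ) ^ 2 := by ring
    _ ≤ (5 * E) ^ 2 := by gcongr
    _ = _ := by ring

end Vale.Agent.P129
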