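import Vale.Agent.P129.Blocks

open Filter Topology Submodule MeasureTheory

namespace Vale.Agent.P129

variable {𝕜 : Type*} [RCLike 𝕜] {X : Type*} [NormedAddCommGroup X] [NormedSpace 𝕜 X]

lemma exists_wstar_lim {ι : Type*} (U : Ultrafilter ι) (j : ι → (X →L[𝕜] 𝕜)) {B : ℝ}
    (hj : ∀ i, ‖j i‖ ≤ B) :
    ∃ ξ : X →L[𝕜] 𝕜, ∀ x, Tendsto (fun i => j i x) U (𝓝 (ξ x)) := by
  obtain ⟨ξ, -, h⟩ := (WeakDual.isCompact_closedBall (𝕜 := 𝕜) (E := X) 0 B).ultrafilter_le_nhds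
    (U.map fun i => StrongDual.toWeakDual (j i)) (by
      rw [le_principal_iff, Ultrafilter.mem_coe, Ultrafilter.mem_map]
      filter_upwards with i
      simpa using hj i)
  exact ⟨WeakDual.toStrongDual ξ, fun x => ((WeakDual.eval_continuous x).tendsto ξ).comp h⟩

/-- finite Rademacher averages -/
noncomputable def avg (d : ℕ → X →L[𝕜] 𝕜) (L j : ℕ) : X →L[𝕜] 𝕜 :=
  ∑ k ∈ Finset.range (2 ^ L), (((2 ^ L : ℝ)⁻¹ : ℝ) * rad 𝕜 j k : 𝕜) • d (2 ^ L + k)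

lemma norm_avg_le {d : ℕ → X →L[𝕜] 𝕜} (h1 : ∀ n, ‖d n‖ = 1) (L j : ℕ) : ‖avg d L j‖ ≤ 1 := by
  refine (norm_sum_le_of_le _ (n := fun _ => (2 ^ L : ℝ)⁻¹) fun k _ => ?_).trans ?_
  · rw [norm_smul, norm_mul, norm_rad, h1, RCLike.norm_ofReal, abs_of_pos (by positivity)]
    simp
  · simp

lemma sum_avg (d : ℕ → X →L[𝕜] 𝕜) {J L : ℕ} (h : J ≤ L) (a : ℕ → 𝕜) :
    ∑ j ∈ Finset.range J, a j • avg d L j = ∑ k ∈ Finset.Ico (2 ^ L) (2 ^ (L + 1)),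
      (((2 ^ L : ℝ)⁻¹ : ℝ) * ∑ j ∈ Finset.range L, (if j < J then a j else 0) *
        rad 𝕜 j (k - 2 ^ L) : 𝕜) • d k := by
  rw [Finset.sum_Ico_eq_sum_range, show 2 ^ (L + 1) - 2 ^ L = 2 ^ L by
    rw [pow_succ, mul_two, Nat.add_sub_cancel]]
  ext x
  simp only [avg, ContinuousLinearMap.sum_apply, ContinuousLinearMap.smul_apply, smul_eq_mul,
    Finset.mul_sum, Finset.sum_mul, Nat.add_sub_cancel_left]
  rw [Finset.sum_comm]
  refine Finset.sum_congr rfl fun k _ => ?_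
  rw [← Finset.sum_subset (Finset.range_subset_range.2 h) fun j _ hj => by
    rw [if_neg (by simpa using hj)]; simp]
  refine Finset.sum_congr rfl fun j hj => ?_
  rw [if_pos (Finset.mem_range.1 hj)]
  ring

lemma sum_trunc {J L : ℕ} (h : J ≤ L) (a : ℕ → 𝕜) :
    ∑ j ∈ Finset.range L, ‖if j < J then a j else 0‖ ^ 2 = ∑ j ∈ Finset.range J, ‖a j‖ ^ 2 := by
  rw [← Finset.sum_subset (Finset.range_subset_range.2 h) fun j _ hj => by
    rw [if_neg (by simpa using hj)]; simp]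
  exact Finset.sum_congr rfl fun j hj => by rw [if_pos (Finset.mem_range.1 hj)]

lemma sum_coeff (L : ℕ) (a : ℕ → 𝕜) :
    ∑ k ∈ Finset.Ico (2 ^ L) (2 ^ (L + 1)),
      ‖(((2 ^ L : ℝ)⁻¹ : ℝ) * ∑ j ∈ Finset.range L, a j * rad 𝕜 j (k - 2 ^ L) : 𝕜)‖ =
    (2 ^ L : ℝ)⁻¹ * ∑ k ∈ Finset.range (2 ^ L), ‖∑ j ∈ Finset.range L, a j * rad 𝕜 j k‖ := by
  rw [Finset.sum_Ico_eq_sum_range, show 2 ^ (L + 1) - 2 ^ L = 2 ^ L by
    rw [pow_succ, mul_two, Nat.add_sub_cancel], Finset.mul_sum]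
  refine Finset.sum_congr rfl fun k _ => ?_
  rw [norm_mul, RCLike.norm_ofReal, abs_of_pos (by positivity), Nat.add_sub_cancel_left]

lemma avg_upper {d : ℕ → X →L[𝕜] 𝕜} (h1 : ∀ n, ‖d n‖ = 1) {J L : ℕ} (h : J ≤ L) (a : ℕ → 𝕜) :
    ‖∑ j ∈ Finset.range J, a j • avg d L j‖ ^ 2 ≤ ∑ j ∈ Finset.range J, ‖a j‖ ^ 2 := by
  have h2 := rad_upper (fun j => if j < J then a j else 0) L
  rw [sum_trunc h] at h2
  rw [sum_avg d h]
  refine (pow_le_pow_left₀ (norm_nonneg _) (norm_sum_le _ _) 2).trans ?_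
  simp only [norm_smul, h1, mul_one]
  rw [sum_coeff, mul_pow, inv_pow, inv_mul_le_iff₀ (by positivity)]
  exact h2

lemma avg_lower {d : ℕ → X →L[𝕜] 𝕜} {K : ℝ} (hK : L1 d K) {J L : ℕ} (h : J ≤ L) (a : ℕ → 𝕜) :
    ∑ j ∈ Finset.range J, ‖a j‖ ^ 2 ≤ 25 * (K * ‖∑ j ∈ Finset.range J, a j • avg d L j‖) ^ 2 := by
  have h2 := rad_lower (fun j => if j < J then a j else 0) L
  rw [sum_trunc h] at h2
  rw [sum_avg d h]
  refine le_trans ?_ (mul_le_mul_of_nonneg_left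
    (pow_le_pow_left₀ (by positivity) (hK _ _) 2) (by norm_num))
  rw [sum_coeff, mul_pow, inv_pow, mul_left_comm, le_inv_mul_iff₀ (by positivity)]
  exact h2

lemma select {d : ℕ → X →L[𝕜] 𝕜} {K ε : ℝ} (hK0 : 0 < K) (hε : 0 < ε) (hK : L1 d K)
    (H : ∀ w, Block d w → (∀ n, ‖w n‖ = 1) → ∃ x, ∃ᶠ n in atTop, ε * ‖x‖ < ‖w n x‖)
    (J : ℕ) (a : ℕ → 𝕜) (A : Set ℕ) (hA : A.Infinite) :
    ∃ A' : Set ℕ, A' ⊆ A ∧ A'.Infinite ∧ ∃ x : X, ‖x‖ ≤ 1 ∧ ∀ L ∈ A', J ≤ L ∧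
      (ε / (5 * K)) ^ 2 * ∑ j ∈ Finset.range J, ‖a j‖ ^ 2 ≤
        ‖(∑ j ∈ Finset.range J, a j • avg d L j) x‖ ^ 2 := by
  have hB : (setOf fun L => L ∈ A ∧ J ≤ L).Infinite := by
    refine (hA.diff (Set.finite_lt_nat J)).mono fun L hL => ⟨hL.1, not_lt.1 hL.2⟩
  have hs : 0 ≤ ∑ j ∈ Finset.range J, ‖a j‖ ^ 2 := by positivity
  rcases hs.eq_or_lt with h0 | h0
  · exact ⟨_, fun L hL => hL.1, hB, 0, by simp, fun L hL => ⟨hL.2, by simp [← h0]⟩⟩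
  let L := Nat.nth fun L => L ∈ A ∧ J ≤ L
  have hL : StrictMono L := Nat.nth_strictMono hB
  have hL' : ∀ n, L n ∈ A ∧ J ≤ L n := Nat.nth_mem_of_infinite hB
  let g : ℕ → X →L[𝕜] 𝕜 := fun L => ∑ j ∈ Finset.range J, a j • avg d L j
  have hg : ∀ n, g (L n) ≠ 0 := fun n h => by
    have := avg_lower hK (hL' n).2 a
    rw [show ∑ j ∈ Finset.range J, a j • avg d (L n) j = 0 from h] at this
    simp only [norm_zero, mul_zero, ne_eq, OfNat.ofNat_ne_zero, not_false_eq_true,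
      zero_pow] at this
    linarith
  obtain ⟨x, hx⟩ := H (fun n => ((‖g (L n)‖⁻¹ : ℝ) : 𝕜) • g (L n))
    ⟨fun n => 2 ^ L n, fun n m h => Nat.pow_lt_pow_right (by norm_num) (hL h), fun n =>
      smul_mem _ _ (span_Ico_mono d le_rfl
        (Nat.pow_le_pow_right (by norm_num) (hL (Nat.lt_succ_self n))) (by
          simp only [g]
          rw [sum_avg d (hL' n).2]
          exact sum_mem_span _ _ _))⟩ fun n => norm_normalize (hg n)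
  have hx0 : 0 < ‖x‖ := by
    obtain ⟨n, hn⟩ := hx.exists
    refine norm_pos_iff.2 ?_
    rintro rfl
    simp at hn
  refine ⟨L '' _, ?_, (Nat.frequently_atTop_iff_infinite.1 hx).image hL.injective.injOn,
    ((‖x‖⁻¹ : ℝ) : 𝕜) • x, ?_, ?_⟩
  · rintro _ ⟨n, -, rfl⟩
    exact (hL' n).1
  · rw [norm_smul, RCLike.norm_ofReal, abs_of_pos (inv_pos.2 hx0), inv_mul_cancel₀ hx0.ne']
  · rintro _ ⟨n, hn, rfl⟩
    refine ⟨(hL' n).2, ?_⟩
    have hgn := norm_pos_iff.2 (hg n)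
    have h1 : ε * ‖g (L n)‖ ≤ ‖g (L n) (((‖x‖⁻¹ : ℝ) : 𝕜) • x)‖ := by
      rw [Set.mem_setOf_eq, ContinuousLinearMap.smul_apply, norm_smul, RCLike.norm_ofReal,
        abs_of_pos (inv_pos.2 hgn), lt_inv_mul_iff₀ hgn] at hn
      rw [map_smul, norm_smul, RCLike.norm_ofReal, abs_of_pos (inv_pos.2 hx0),
        le_inv_mul_iff₀ hx0]
      linarith
    refine le_trans ?_ (pow_le_pow_left₀ (by positivity) h1 2)
    refine (mul_le_mul_of_nonneg_left (avg_lower hK (hL' n).2 a) (by positivity)).trans_eq ?_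
    simp only [g]
    field_simp
    ring

theorem sq_of_uniform [CompleteSpace X] {d : ℕ → X →L[𝕜] 𝕜} {K ε : ℝ} (hK0 : 0 < K) (hε : 0 < ε)
    (h1 : ∀ n, ‖d n‖ = 1) (hK : L1 d K)
    (H : ∀ w, Block d w → (∀ n, ‖w n‖ = 1) → ∃ x, ∃ᶠ n in atTop, ε * ‖x‖ < ‖w n x‖) :
    HasSepQuot 𝕜 X := by
  let a := TopologicalSpace.denseSeq (ℕ → 𝕜)
  choose S hS1 hS2 x hx hS3 using fun (n : ℕ) (A : {A : Set ℕ // A.Infinite}) =>
    select hK0 hε hK H n.unpair.1 (a n.unpair.2) A.1 A.2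
  let A : ℕ → {A : Set ℕ // A.Infinite} := fun n => Nat.rec ⟨Set.univ, Set.infinite_univ⟩
    (fun n A => ⟨S n A, hS2 n A⟩) n
  have hA : Antitone fun n => (A n).1 := antitone_nat_of_succ_le fun n => hS1 n (A n)
  haveI : (⨅ n, 𝓟 (A n).1).NeBot :=
    iInf_neBot_of_directed (Antitone.directed_ge fun n m h => principal_mono.2 (hA h))
      fun n => principal_neBot_iff.2 (A n).2.nonempty
  let U := Ultrafilter.of (⨅ n, 𝓟 (A n).1)
  have hU : ∀ n, ∀ᶠ L in (U : Filter ℕ), L ∈ (A n).1 := fun n =>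
    le_principal_iff.1 ((Ultrafilter.of_le _).trans (iInf_le _ n))
  have hU' : ∀ J m, ∃ y : X, ‖y‖ ≤ 1 ∧ ∀ᶠ L in (U : Filter ℕ), J ≤ L ∧
      (ε / (5 * K)) ^ 2 * ∑ j ∈ Finset.range J, ‖a m j‖ ^ 2 ≤
        ‖(∑ j ∈ Finset.range J, a m j • avg d L j) y‖ ^ 2 := fun J m => by
    refine ⟨_, hx (Nat.pair J m) (A (Nat.pair J m)), (hU (Nat.pair J m + 1)).mono fun L hL => ?_⟩
    simpa only [Nat.unpair_pair] using hS3 (Nat.pair J m) (A (Nat.pair J m)) L hL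
  choose ρ hρ using fun j => exists_wstar_lim U (fun L => avg d L j) fun L => norm_avg_le h1 L j
  have hlim : ∀ (J : ℕ) (b : ℕ → 𝕜) (y : X),
      Tendsto (fun L => ‖(∑ j ∈ Finset.range J, b j • avg d L j) y‖ ^ 2)
      U (𝓝 (‖(∑ j ∈ Finset.range J, b j • ρ j) y‖ ^ 2)) := fun J b y => by
    simp only [ContinuousLinearMap.sum_apply, ContinuousLinearMap.smul_apply]
    exact (tendsto_finset_sum _ fun j _ => (hρ j y).const_smul _).norm.pow 2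
  refine sq_of_l2 ρ (ε / (5 * K)) (by positivity) (fun J b => ?_) fun J y => ?_
  · refine (TopologicalSpace.denseRange_denseSeq (ℕ → 𝕜)).induction_on b
      (isClosed_le (by fun_prop) (by fun_prop)) fun m => ?_
    obtain ⟨y, hy, h⟩ := hU' J m
    refine (ge_of_tendsto (hlim J (a m) y) (h.mono fun L hL => hL.2)).trans ?_
    exact pow_le_pow_left₀ (norm_nonneg _) (ContinuousLinearMap.unit_le_opNorm _ y hy) 2
  · obtain ⟨_, -, h⟩ := hU' J 0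
    have h2 := le_of_tendsto (hlim J (fun j => (starRingEnd 𝕜) (ρ j y)) y)
      (b := (∑ j ∈ Finset.range J, ‖ρ j y‖ ^ 2) * ‖y‖ ^ 2) (h.mono fun L hL => by
        refine (pow_le_pow_left₀ (norm_nonneg _) (ContinuousLinearMap.le_opNorm _ y) 2).trans ?_
        rw [mul_pow]
        gcongr
        simpa using avg_upper h1 hL.1 fun j => (starRingEnd 𝕜) (ρ j y))
    have e : (∑ j ∈ Finset.range J, (starRingEnd 𝕜) (ρ j y) • ρ j) y =
        ((∑ j ∈ Finset.range J, ‖ρ j y‖ ^ 2 : ℝ) : 𝕜) := by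
      simp [RCLike.conj_mul]
    have hs : 0 ≤ ∑ j ∈ Finset.range J, ‖ρ j y‖ ^ 2 := by positivity
    rw [e, RCLike.norm_ofReal, abs_of_nonneg hs] at h2
    rcases hs.eq_or_lt with h0 | h0
    · rw [← h0]; positivity
    · exact le_of_mul_le_mul_left (by linarith) h0

theorem sq_of_free [CompleteSpace X] {z : ℕ → X →L[𝕜] 𝕜} (h1 : ∀ i, ‖z i‖ = 1) (hz : Free z) :
    HasSepQuot 𝕜 X := by
  by_cases ht : Tail z
  · exact sq_of_tail h1 hz ht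
  obtain ⟨u, x0, C, hB, hu, hC⟩ := exists_block_of_not_tail ht
  have hF := hz.block hB
  have h0 : ∀ k, u k ≠ 0 := fun k h => by simpa [h] using hu k
  have hx0 : 0 < ‖x0‖ := norm_pos_iff.2 (by rintro rfl; simpa using hu 0)
  have hK : 0 < C * (8 * ‖x0‖) := mul_pos ((norm_pos_iff.2 (h0 0)).trans_le (hC 0)) (by positivity)
  have hL := fun d hd hd1 => (hF.l1 hu).block hC (d := d) hd hd1
  by_cases H : ∀ d, Block u d → (∀ n, ‖d n‖ = 1) → ∀ ε : ℝ, 0 < ε → ∃ w, Block d w ∧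
      (∀ n, ‖w n‖ = 1) ∧ ∀ x, ∀ᶠ n in atTop, ‖w n x‖ ≤ ε * ‖x‖
  · obtain ⟨e, he, he1, hte⟩ := diag hK h0 hL H
    exact sq_of_tail he1 (hF.block he) hte
  · push Not at H
    obtain ⟨d, hd, hd1, ε, hε, H⟩ := H
    exact sq_of_uniform hK hε hd1 (hL d hd hd1) H

theorem sq_of_total [CompleteSpace X] (hX : ¬ FiniteDimensional 𝕜 X) {Ω : Type*}
    [MeasurableSpace Ω] [DiscreteMeasurableSpace Ω] (ν : Measure Ω) [IsProbabilityMeasure ν]
    (hν : ∀ N : ℕ, 0 < N → ∃ r : Ω → Fin N, ∀ i, ν {t | r t = i} ≤ (N : ENNReal)⁻¹) :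
    HasSepQuot 𝕜 X := by
  rcases sq_or_free hX ν hν with h | ⟨z, h1, hz⟩
  · exact h
  · exact sq_of_free h1 hz

end Vale.Agent.P129
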